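import Mathlib

open MeasureTheory Filter Topology Set
open scoped ENNReal SchwartzMap ContDiff

namespace Vale.Agent.Lib.P141

/-- A smooth bump: equal to `1` on `[-1/8, 1/8]` and supported in `(-1/4, 1/4)`. -/
noncomputable def bmp : ContDiffBump (0 : ℝ) := ⟨1 / 8, 1 / 4, by norm_num, by norm_num⟩

lemma bmp_nonneg (y : ℝ) : 0 ≤ bmp y := bmp.nonneg

lemma bmp_le_one (y : ℝ) : bmp y ≤ 1 := bmp.le_one

lemma bmp_eq_one {y : ℝ} (h : |y| ≤ 1 / 8) : bmp y = 1 := by
  apply bmp.one_of_mem_closedBall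
  simpa [bmp, Metric.mem_closedBall, Real.dist_eq] using h

lemma bmp_eq_zero {y : ℝ} (h : 1 / 4 ≤ |y|) : bmp y = 0 := by
  apply bmp.zero_of_le_dist
  simpa [bmp, Real.dist_eq] using h

/-- A finite sum of integer translates of the bump. -/
noncomputable def gS (S : Finset ℤ) (y : ℝ) : ℝ := ∑ s ∈ S, bmp (y - s)

lemma gS_nonneg (S : Finset ℤ) (y : ℝ) : 0 ≤ gS S y :=
  Finset.sum_nonneg fun _ _ => bmp_nonneg _

lemma gS_le_one (S : Finset ℤ) (y : ℝ) : gS S y ≤ 1 := by
  classical
  unfold gS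
  by_cases h : ∃ s ∈ S, |y - s| < 1 / 4
  · obtain ⟨s, hs, hy⟩ := h
    rw [Finset.sum_eq_single_of_mem s hs]
    · exact bmp_le_one _
    · intro b _ hb
      apply bmp_eq_zero
      by_contra hlt
      push Not at hlt
      have h1 : |(s : ℝ) - b| < 1 / 2 := by
        have : (s : ℝ) - b = (y - b) - (y - s) := by ring
        rw [this]
        calc |(y - b) - (y - s)| ≤ |y - b| + |y - s| := abs_sub _ _
          _ < 1 / 2 := by linarith
      have h2 : |s - b| < 1 := by
        have h3 : |(s : ℝ) - b| < 1 := by linarith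
        exact_mod_cast h3
      have h3 : s - b = 0 := by
        have := Int.abs_lt_one_iff.mp h2
        exact this
      exact hb (by linarith)
  · push Not at h
    rw [Finset.sum_eq_zero]
    · norm_num
    · intro s hs
      exact bmp_eq_zero (h s hs)

lemma one_le_gS {S : Finset ℤ} {s : ℤ} (hs : s ∈ S) {y : ℝ} (h : |y - s| ≤ 1 / 8) :
    1 ≤ gS S y := by
  have : bmp (y - s) ≤ gS S y :=
    Finset.single_le_sum (f := fun s : ℤ => bmp (y - s)) (fun _ _ => bmp_nonneg _) hs
  rwa [bmp_eq_one h] at this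

lemma gS_eq_zero {S : Finset ℤ} {y : ℝ} (h : ∀ s ∈ S, 1 / 4 ≤ |y - s|) : gS S y = 0 :=
  Finset.sum_eq_zero fun s hs => bmp_eq_zero (h s hs)

/-- If `gS` does not vanish, `y` is within `1/4` of a point of `S`. -/
lemma exists_of_gS_ne_zero {S : Finset ℤ} {y : ℝ} (h : gS S y ≠ 0) : ∃ s ∈ S, |y - s| < 1 / 4 := by
  by_contra hne
  push Not at hne
  exact h (gS_eq_zero hne)

lemma continuous_gS (S : Finset ℤ) : Continuous (gS S) := by
  unfold gS
  exact continuous_finsetSum _ fun s _ => bmp.continuous.comp (continuous_id.sub continuous_const)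

lemma contDiff_gS (S : Finset ℤ) : ContDiff ℝ ∞ (gS S) := by
  unfold gS
  exact ContDiff.sum fun s _ => bmp.contDiff.comp (contDiff_id.sub contDiff_const)

lemma hasCompactSupport_gS (S : Finset ℤ) : HasCompactSupport (gS S) := by
  have hK : IsCompact (⋃ s ∈ S, Metric.closedBall (s : ℝ) (1 / 4)) :=
    S.isCompact_biUnion fun s _ => isCompact_closedBall _ _
  refine HasCompactSupport.of_support_subset_isCompact hK ?_
  intro y hy
  obtain ⟨s, hs, h⟩ := exists_of_gS_ne_zero hy
  simp only [mem_iUnion, exists_prop]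
  exact ⟨s, hs, by rw [Metric.mem_closedBall, Real.dist_eq]; exact h.le⟩

/-- `gS` as a complex-valued function. -/
noncomputable def gC (S : Finset ℤ) (y : ℝ) : ℂ := (gS S y : ℂ)

lemma contDiff_gC (S : Finset ℤ) : ContDiff ℝ ∞ (gC S) :=
  Complex.ofRealCLM.contDiff.comp (contDiff_gS S)

lemma hasCompactSupport_gC (S : Finset ℤ) : HasCompactSupport (gC S) := by
  have := (hasCompactSupport_gS S).comp_left (g := fun x : ℝ => (x : ℂ)) (by simp)
  exact this

/-- The Schwartz function built from `S`. -/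
noncomputable def schS (S : Finset ℤ) : 𝓢(ℝ, ℂ) :=
  (hasCompactSupport_gC S).toSchwartzMap (contDiff_gC S)

lemma schS_apply (S : Finset ℤ) (y : ℝ) : schS S y = (gS S y : ℂ) := rfl

lemma eLpNorm_schS_le (S : Finset ℤ) (p : ℝ≥0∞) :
    eLpNorm (schS S) p volume ≤ (S.card : ℝ≥0∞) ^ (1 / p.toReal) := by
  set E : Set ℝ := ⋃ s ∈ S, Metric.ball (s : ℝ) (1 / 4) with hE
  have hpt : ∀ y, ‖schS S y‖ₑ ≤ ‖E.indicator (fun _ => (1 : ℝ)) y‖ₑ := by
    intro y
    by_cases hy : y ∈ E
    · rw [indicator_of_mem hy, schS_apply]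
      simp only [enorm_one]
      rw [← ofReal_norm]
      rw [Complex.norm_real, Real.norm_eq_abs, abs_of_nonneg (gS_nonneg _ _)]
      calc ENNReal.ofReal (gS S y) ≤ ENNReal.ofReal 1 := ENNReal.ofReal_le_ofReal (gS_le_one _ _)
        _ = 1 := ENNReal.ofReal_one
    · have h0 : gS S y = 0 := by
        apply gS_eq_zero
        intro s hs
        by_contra hlt
        push Not at hlt
        apply hy
        simp only [hE, mem_iUnion, exists_prop]
        exact ⟨s, hs, by rw [Metric.mem_ball, Real.dist_eq]; exact hlt⟩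
      rw [schS_apply, h0]
      simp
  have h1 : volume E ≤ S.card := by
    calc volume E ≤ ∑ s ∈ S, volume (Metric.ball (s : ℝ) (1 / 4)) :=
          measure_biUnion_finset_le _ _
      _ ≤ ∑ _s ∈ S, (1 : ℝ≥0∞) := by
          refine Finset.sum_le_sum fun s _ => ?_
          rw [Real.volume_ball]
          calc ENNReal.ofReal (2 * (1 / 4)) ≤ ENNReal.ofReal 1 :=
                ENNReal.ofReal_le_ofReal (by norm_num)
            _ = 1 := ENNReal.ofReal_one
      _ = S.card := by simp
  calc eLpNorm (schS S) p volume ≤ eLpNorm (E.indicator fun _ => (1 : ℝ)) p volume :=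
        eLpNorm_mono_enorm hpt
    _ ≤ ‖(1 : ℝ)‖ₑ * volume E ^ (1 / p.toReal) := eLpNorm_indicator_const_le _ _
    _ = volume E ^ (1 / p.toReal) := by simp
    _ ≤ _ := ENNReal.rpow_le_rpow h1 (by positivity)

end Vale.Agent.Lib.P141
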