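import Mathlib

open MeasureTheory Filter Topology
open scoped ENNReal SchwartzMap

namespace Vale.Agent.Lib.P141

/-- The truncated trilinear Hilbert transform with slopes `1, 2, 3`: the integral of
`f₁ (x - t) * f₂ (x - 2 * t) * f₃ (x - 3 * t) / t` over `ε < |t| < R`. -/
noncomputable def truncT (f₁ f₂ f₃ : ℝ → ℂ) (ε R x : ℝ) : ℂ :=
  ∫ t in {t : ℝ | ε < |t| ∧ |t| < R}, f₁ (x - t) * f₂ (x - 2 * t) * f₃ (x - 3 * t) / (t : ℂ)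

/-- The trilinear Hilbert transform: the principal value, that is, the limit of `truncT`
as `ε → 0+` and `R → ∞`. -/
noncomputable def hilbertT (f₁ f₂ f₃ : ℝ → ℂ) (x : ℝ) : ℂ :=
  limUnder ((𝓝[>] (0 : ℝ)) ×ˢ atTop) (fun q : ℝ × ℝ => truncT f₁ f₂ f₃ q.1 q.2 x)

/-- `(p₁, p₂, p₃, r)` is a Holder tuple: `1 < pᵢ ≤ ∞`, `0 < r < ∞`, `1/r = 1/p₁ + 1/p₂ + 1/p₃`. -/
structure IsHolder (p₁ p₂ p₃ r : ℝ≥0∞) : Prop where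
  one_lt_p₁ : 1 < p₁
  one_lt_p₂ : 1 < p₂
  one_lt_p₃ : 1 < p₃
  r_pos : 0 < r
  r_lt_top : r < ∞
  holder : 1 / r = 1 / p₁ + 1 / p₂ + 1 / p₃

/-- The trilinear Hilbert transform is bounded at `(p₁, p₂, p₃, r)`: there is a finite `C` with
`‖T(f₁, f₂, f₃)‖_r ≤ C ‖f₁‖_{p₁} ‖f₂‖_{p₂} ‖f₃‖_{p₃}` for all Schwartz functions. -/
def BoundedAt (p₁ p₂ p₃ r : ℝ≥0∞) : Prop :=
  ∃ C : NNReal, ∀ f₁ f₂ f₃ : 𝓢(ℝ, ℂ),
    eLpNorm (hilbertT f₁ f₂ f₃) r volume ≤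
      C * (eLpNorm f₁ p₁ volume * eLpNorm f₂ p₂ volume * eLpNorm f₃ p₃ volume)

end Vale.Agent.Lib.P141
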