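import Mathlib

/-! Finite configurations of pairs `(x, t)` in `ℤ × ℤ` and their digit tensor powers. -/

namespace Vale.Agent.Lib.P141

open Finset

/-- The three input forms: `x - k t`. -/
def form (k : ℤ) (z : ℤ × ℤ) : ℤ := z.1 - k * z.2

/-- The digit tensor product of two configurations in base `L`. -/
def tensor (L : ℤ) (P Q : Finset (ℤ × ℤ)) : Finset (ℤ × ℤ) :=
  (P ×ˢ Q).image (fun z => (z.1.1 + L * z.2.1, z.1.2 + L * z.2.2))

/-- Iterated digit tensor power. -/
def tower (L : ℤ) (P : Finset (ℤ × ℤ)) : ℕ → Finset (ℤ × ℤ)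
  | 0 => {(0, 0)}
  | d + 1 => tensor L P (tower L P d)

/-- The number of `t` with `(n, t)` in the configuration. -/
def fib (P : Finset (ℤ × ℤ)) (n : ℤ) : ℕ := (P.filter (fun z => z.1 = n)).card

/-- The weighted count `∑ₙ (fib n)^r`. -/
noncomputable def wt (r : ℝ) (P : Finset (ℤ × ℤ)) : ℝ :=
  ∑ n ∈ P.image Prod.fst, ((fib P n : ℕ) : ℝ) ^ r

/-- Admissibility of a configuration in base `L`: the pair `(x, t)` is determined by its residues,
and distinct `x` have distinct residues. -/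
structure Admissible (L : ℤ) (P : Finset (ℤ × ℤ)) : Prop where
  pair_inj : ∀ z ∈ P, ∀ w ∈ P, L ∣ z.1 - w.1 → L ∣ z.2 - w.2 → z = w
  fst_inj : ∀ z ∈ P, ∀ w ∈ P, L ∣ z.1 - w.1 → z.1 = w.1

lemma form_tensor (k L : ℤ) (z w : ℤ × ℤ) :
    form k (z.1 + L * w.1, z.2 + L * w.2) = form k z + L * form k w := by
  simp only [form]; ring

lemma card_image_form_tensor_le (k L : ℤ) (P Q : Finset (ℤ × ℤ)) :
    ((tensor L P Q).image (form k)).card ≤ (P.image (form k)).card * (Q.image (form k)).card := by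
  classical
  have hsub : (tensor L P Q).image (form k) ⊆
      ((P.image (form k)) ×ˢ (Q.image (form k))).image (fun a => a.1 + L * a.2) := by
    intro n hn
    obtain ⟨w, hw, rfl⟩ := mem_image.mp hn
    obtain ⟨⟨z, z'⟩, hzz, rfl⟩ := mem_image.mp hw
    obtain ⟨h1, h2⟩ := mem_product.mp hzz
    refine mem_image.mpr ⟨(form k z, form k z'), mem_product.mpr
      ⟨mem_image_of_mem _ h1, mem_image_of_mem _ h2⟩, ?_⟩
    simp only [form]; ring
  calc _ ≤ _ := card_le_card hsub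
    _ ≤ _ := card_image_le
    _ = _ := card_product _ _

lemma card_image_form_tower_le (k L : ℤ) (P : Finset (ℤ × ℤ)) (d : ℕ) :
    ((tower L P d).image (form k)).card ≤ (P.image (form k)).card ^ d := by
  induction d with
  | zero => simp [tower]
  | succ d ih =>
    calc ((tower L P (d + 1)).image (form k)).card
        ≤ (P.image (form k)).card * ((tower L P d).image (form k)).card :=
          card_image_form_tensor_le k L P _
      _ ≤ (P.image (form k)).card * (P.image (form k)).card ^ d :=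
          Nat.mul_le_mul_left _ ih
      _ = _ := by rw [pow_succ]; ring

lemma tensor_map_injOn {L : ℤ} (hL : L ≠ 0) {P Q : Finset (ℤ × ℤ)} (hP : Admissible L P) :
    Set.InjOn (fun z : (ℤ × ℤ) × (ℤ × ℤ) => (z.1.1 + L * z.2.1, z.1.2 + L * z.2.2))
      (↑(P ×ˢ Q) : Set ((ℤ × ℤ) × (ℤ × ℤ))) := by
  rintro ⟨⟨x, t⟩, ⟨x', t'⟩⟩ h1 ⟨⟨y, s⟩, ⟨y', s'⟩⟩ h2 h
  simp only [coe_product, Set.mem_prod, mem_coe] at h1 h2
  simp only [Prod.mk.injEq] at h
  have h3 : L ∣ x - y := ⟨y' - x', by linear_combination h.1⟩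
  have h4 : L ∣ t - s := ⟨s' - t', by linear_combination h.2⟩
  have h5 := hP.pair_inj _ h1.1 _ h2.1 h3 h4
  simp only [Prod.mk.injEq] at h5
  obtain ⟨rfl, rfl⟩ := h5
  have h6 : x' = y' := by
    have := h.1
    exact mul_left_cancel₀ hL (by linarith)
  have h7 : t' = s' := by
    have := h.2
    exact mul_left_cancel₀ hL (by linarith)
  subst h6; subst h7; rfl

lemma fib_tensor {L : ℤ} (hL : L ≠ 0) {P Q : Finset (ℤ × ℤ)} (hP : Admissible L P)
    {x x' : ℤ} (hx : x ∈ P.image Prod.fst) :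
    fib (tensor L P Q) (x + L * x') = fib P x * fib Q x' := by
  classical
  obtain ⟨z0, hz0, rfl⟩ := mem_image.mp hx
  have : (tensor L P Q).filter (fun z => z.1 = z0.1 + L * x') =
      ((P.filter (fun z => z.1 = z0.1)) ×ˢ (Q.filter (fun z => z.1 = x'))).image
        (fun z => (z.1.1 + L * z.2.1, z.1.2 + L * z.2.2)) := by
    ext w
    constructor
    · intro hw
      obtain ⟨hw1, hw2⟩ := mem_filter.mp hw
      obtain ⟨⟨z, z'⟩, hzz, rfl⟩ := mem_image.mp hw1
      obtain ⟨h1, h2⟩ := mem_product.mp hzz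
      simp only at hw2 h1 h2
      have h4 : L ∣ z.1 - z0.1 := ⟨x' - z'.1, by linear_combination hw2⟩
      have h5 := hP.fst_inj z h1 z0 hz0 h4
      have h6 : z'.1 = x' := by
        have : L * z'.1 = L * x' := by rw [h5] at hw2; linarith
        exact mul_left_cancel₀ hL this
      exact mem_image.mpr ⟨(z, z'), mem_product.mpr
        ⟨mem_filter.mpr ⟨h1, h5⟩, mem_filter.mpr ⟨h2, h6⟩⟩, rfl⟩
    · intro hw
      obtain ⟨⟨z, z'⟩, hzz, rfl⟩ := mem_image.mp hw
      obtain ⟨h1, h2⟩ := mem_product.mp hzz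
      obtain ⟨h1a, h1b⟩ := mem_filter.mp h1
      obtain ⟨h2a, h2b⟩ := mem_filter.mp h2
      refine mem_filter.mpr ⟨mem_image.mpr ⟨(z, z'), mem_product.mpr ⟨h1a, h2a⟩, rfl⟩, ?_⟩
      simp only
      rw [h1b, h2b]
  unfold fib
  rw [this, card_image_of_injOn, card_product]
  exact (tensor_map_injOn hL hP (Q := Q)).mono
    (by
      intro z hz
      simp only [coe_product, Set.mem_prod, mem_coe, mem_filter] at hz ⊢
      exact ⟨hz.1.1, hz.2.1⟩)

lemma image_fst_tensor (L : ℤ) (P Q : Finset (ℤ × ℤ)) :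
    (tensor L P Q).image Prod.fst =
      ((P.image Prod.fst) ×ˢ (Q.image Prod.fst)).image (fun a => a.1 + L * a.2) := by
  classical
  ext n
  constructor
  · intro hn
    obtain ⟨w, hw, rfl⟩ := mem_image.mp hn
    obtain ⟨⟨z, z'⟩, hzz, rfl⟩ := mem_image.mp hw
    obtain ⟨h1, h2⟩ := mem_product.mp hzz
    exact mem_image.mpr ⟨(z.1, z'.1), mem_product.mpr
      ⟨mem_image.mpr ⟨z, h1, rfl⟩, mem_image.mpr ⟨z', h2, rfl⟩⟩, rfl⟩
  · intro hn
    obtain ⟨⟨a, a'⟩, ha, rfl⟩ := mem_image.mp hn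
    obtain ⟨h1, h2⟩ := mem_product.mp ha
    obtain ⟨z, hz, rfl⟩ := mem_image.mp h1
    obtain ⟨z', hz', rfl⟩ := mem_image.mp h2
    exact mem_image.mpr ⟨(z.1 + L * z'.1, z.2 + L * z'.2),
      mem_image.mpr ⟨(z, z'), mem_product.mpr ⟨hz, hz'⟩, rfl⟩, rfl⟩

lemma wt_tensor {L : ℤ} (hL : L ≠ 0) {P Q : Finset (ℤ × ℤ)} (hP : Admissible L P) (r : ℝ) :
    wt r (tensor L P Q) = wt r P * wt r Q := by
  classical
  unfold wt
  rw [image_fst_tensor, sum_image, sum_product, sum_mul_sum]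
  · refine sum_congr rfl fun x hx => sum_congr rfl fun x' _ => ?_
    simp only
    rw [fib_tensor hL hP hx]
    push_cast
    rw [Real.mul_rpow (Nat.cast_nonneg _) (Nat.cast_nonneg _)]
  · rintro ⟨x, x'⟩ h1 ⟨y, y'⟩ h2 h
    simp only [coe_product, Set.mem_prod, mem_coe] at h1 h2
    simp only at h
    obtain ⟨z, hz, rfl⟩ := mem_image.mp h1.1
    obtain ⟨w, hw, rfl⟩ := mem_image.mp h2.1
    have h3 : L ∣ z.1 - w.1 := ⟨y' - x', by linear_combination h⟩
    have h4 := hP.fst_inj z hz w hw h3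
    rw [h4] at h ⊢
    have h5 : x' = y' := mul_left_cancel₀ hL (by linarith)
    rw [h5]

lemma wt_tower {L : ℤ} (hL : L ≠ 0) {P : Finset (ℤ × ℤ)} (hP : Admissible L P) (r : ℝ) (d : ℕ) :
    wt r (tower L P d) = wt r P ^ d := by
  induction d with
  | zero =>
    have : ((tower L P 0).filter (fun z => z.1 = (0 : ℤ))).card = 1 := by
      simp [tower, filter_singleton]
    simp only [tower, wt, fib, image_singleton, sum_singleton] at this ⊢
    rw [this]; simp
  | succ d ih =>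
    simp only [tower]
    rw [wt_tensor hL hP, ih, pow_succ]; ring

/-- Size bound for the tower. -/
lemma tower_bound {L : ℤ} (hL : 2 ≤ L) {P : Finset (ℤ × ℤ)} {M : ℤ} (hM : 0 ≤ M)
    (hP : ∀ z ∈ P, |z.1| ≤ M ∧ |z.2| ≤ M) (d : ℕ) :
    ∀ z ∈ tower L P d, |z.1| + M ≤ 2 * M * L ^ d ∧ |z.2| + M ≤ 2 * M * L ^ d := by
  induction d with
  | zero =>
    intro z hz
    simp only [tower, mem_singleton] at hz
    subst hz
    simp; linarith
  | succ d ih =>
    intro z hz
    obtain ⟨⟨w, w'⟩, hww, rfl⟩ := mem_image.mp hz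
    obtain ⟨h1, h2⟩ := mem_product.mp hww
    obtain ⟨h3, h4⟩ := hP _ h1
    obtain ⟨h5, h6⟩ := ih _ h2
    obtain ⟨x, t⟩ := w
    obtain ⟨x', t'⟩ := w'
    simp only at h3 h4 h5 h6 ⊢
    have hLpos : 0 < L := by linarith
    have habs : ∀ u v : ℤ, |u + L * v| ≤ |u| + L * |v| := by
      intro u v
      calc |u + L * v| ≤ |u| + |L * v| := abs_add_le _ _
        _ = |u| + L * |v| := by rw [abs_mul, abs_of_pos hLpos]
    have e : 2 * M * L ^ (d + 1) = L * (2 * M * L ^ d) := by ring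
    constructor
    · have h7 := habs x x'
      have h8 : L * (|x'| + M) ≤ L * (2 * M * L ^ d) := mul_le_mul_of_nonneg_left h5 hLpos.le
      nlinarith
    · have h7 := habs t t'
      have h8 : L * (|t'| + M) ≤ L * (2 * M * L ^ d) := mul_le_mul_of_nonneg_left h6 hLpos.le
      nlinarith

end Vale.Agent.Lib.P141
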