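import Mathlib
import Vale.Agent.Lib.P141.Defs
import Vale.Agent.Lib.P141.Tensor
import Vale.Agent.Lib.P141.Bump

open MeasureTheory Filter Topology Set
open scoped ENNReal SchwartzMap ContDiff

namespace Vale.Agent.Lib.P141

section
variable (P : Finset (ℤ × ℤ)) (K : ℤ)

/-- The three shifted sets for a configuration with bound `K`. -/
def shiftS (k : ℤ) : Finset ℤ := (P.image (form k)).image (fun a => a - k * (5 * K + 2))

lemma card_shiftS_le (k : ℤ) : (shiftS P K k).card ≤ (P.image (form k)).card :=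
  Finset.card_image_le

/-- The real integrand. -/
noncomputable def hInt (x t : ℝ) : ℝ :=
  gS (shiftS P K 1) (x - t) * gS (shiftS P K 2) (x - 2 * t) * gS (shiftS P K 3) (x - 3 * t) / t

variable {P K}

lemma support_bound (hK : ∀ z ∈ P, |z.1| ≤ K ∧ |z.2| ≤ K) {x t : ℝ}
    (h1 : gS (shiftS P K 1) (x - t) ≠ 0) (h2 : gS (shiftS P K 2) (x - 2 * t) ≠ 0) :
    3 / 2 < t ∧ t < 10 * K + 5 / 2 := by
  obtain ⟨a', ha', hxa⟩ := exists_of_gS_ne_zero h1
  obtain ⟨b', hb', hxb⟩ := exists_of_gS_ne_zero h2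
  obtain ⟨a, ha, rfl⟩ := Finset.mem_image.mp ha'
  obtain ⟨b, hb, rfl⟩ := Finset.mem_image.mp hb'
  obtain ⟨z, hz, rfl⟩ := Finset.mem_image.mp ha
  obtain ⟨w, hw, rfl⟩ := Finset.mem_image.mp hb
  obtain ⟨h3, h4⟩ := hK z hz
  obtain ⟨h5, h6⟩ := hK w hw
  have h3' : |(z.1 : ℝ)| ≤ K := by exact_mod_cast h3
  have h4' : |(z.2 : ℝ)| ≤ K := by exact_mod_cast h4
  have h5' : |(w.1 : ℝ)| ≤ K := by exact_mod_cast h5
  have h6' : |(w.2 : ℝ)| ≤ K := by exact_mod_cast h6
  rw [abs_lt] at hxa hxb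
  rw [abs_le] at h3' h4' h5' h6'
  simp only [form] at hxa hxb
  push_cast at hxa hxb
  constructor <;> linarith [hxa.1, hxa.2, hxb.1, hxb.2, h3'.1, h3'.2, h4'.1, h4'.2, h5'.1, h5'.2,
    h6'.1, h6'.2]

lemma hInt_eq_zero_of_not_mem (hK : ∀ z ∈ P, |z.1| ≤ K ∧ |z.2| ≤ K) {x t : ℝ}
    (ht : t ∉ Ioo (1 : ℝ) (10 * K + 3)) : hInt P K x t = 0 := by
  unfold hInt
  by_cases h1 : gS (shiftS P K 1) (x - t) = 0
  · simp [h1]
  by_cases h2 : gS (shiftS P K 2) (x - 2 * t) = 0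
  · simp [h2]
  exfalso
  apply ht
  obtain ⟨h3, h4⟩ := support_bound hK h1 h2
  exact ⟨by linarith, by linarith⟩

lemma integrand_eq (x t : ℝ) :
    schS (shiftS P K 1) (x - t) * schS (shiftS P K 2) (x - 2 * t) *
      schS (shiftS P K 3) (x - 3 * t) / (t : ℂ) = ((hInt P K x t : ℝ) : ℂ) := by
  simp only [schS_apply, hInt]
  push_cast
  rfl

lemma truncT_eq (hK : ∀ z ∈ P, |z.1| ≤ K ∧ |z.2| ≤ K) (hK0 : 0 ≤ K) {ε R : ℝ} (hε : ε < 1)
    (hε0 : 0 < ε) (hR : 10 * (K : ℝ) + 3 ≤ R) (x : ℝ) :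
    truncT (schS (shiftS P K 1)) (schS (shiftS P K 2)) (schS (shiftS P K 3)) ε R x =
      ((∫ t in Ioo (1 : ℝ) (10 * K + 3), hInt P K x t : ℝ) : ℂ) := by
  unfold truncT
  simp_rw [integrand_eq]
  have hK0' : (0 : ℝ) ≤ K := by exact_mod_cast hK0
  have hmeas : MeasurableSet {t : ℝ | ε < |t| ∧ |t| < R} :=
    (measurableSet_lt measurable_const continuous_abs.measurable).inter
      (measurableSet_lt continuous_abs.measurable measurable_const)
  have hsub : Ioo (1 : ℝ) (10 * K + 3) ⊆ {t : ℝ | ε < |t| ∧ |t| < R} := by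
    intro t ht
    have h1 : 0 < t := by linarith [ht.1]
    simp only [Set.mem_ofPred_eq, abs_of_pos h1]
    exact ⟨by linarith [ht.1], by linarith [ht.2]⟩
  rw [setIntegral_eq_of_subset_of_forall_sdiff_eq_zero hmeas hsub]
  · exact integral_ofReal
  · intro t ht
    rw [hInt_eq_zero_of_not_mem hK ht.2]
    simp

lemma hilbertT_eq (hK : ∀ z ∈ P, |z.1| ≤ K ∧ |z.2| ≤ K) (hK0 : 0 ≤ K) (x : ℝ) :
    hilbertT (schS (shiftS P K 1)) (schS (shiftS P K 2)) (schS (shiftS P K 3)) x =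
      ((∫ t in Ioo (1 : ℝ) (10 * K + 3), hInt P K x t : ℝ) : ℂ) := by
  unfold hilbertT
  apply Tendsto.limUnder_eq
  apply tendsto_const_nhds.congr'
  have h1 : ∀ᶠ ε : ℝ in 𝓝[>] (0 : ℝ), 0 < ε ∧ ε < 1 := by
    filter_upwards [Ioo_mem_nhdsGT (show (0 : ℝ) < 1 by norm_num)] with ε hε using hε
  have h2 : ∀ᶠ R : ℝ in atTop, 10 * (K : ℝ) + 3 ≤ R := eventually_ge_atTop _
  filter_upwards [h1.prod_mk h2] with q hq
  exact (truncT_eq hK hK0 hq.1.2 hq.1.1 hq.2 x).symm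

lemma hInt_nonneg {x t : ℝ} (ht : 0 < t) : 0 ≤ hInt P K x t := by
  unfold hInt
  have := gS_nonneg (shiftS P K 1) (x - t)
  have := gS_nonneg (shiftS P K 2) (x - 2 * t)
  have := gS_nonneg (shiftS P K 3) (x - 3 * t)
  positivity

lemma continuousOn_hInt (x : ℝ) : ContinuousOn (hInt P K x) (Icc (1 : ℝ) (10 * K + 3)) := by
  unfold hInt
  apply ContinuousOn.div
  · apply Continuous.continuousOn
    exact ((continuous_gS _).comp (by fun_prop)).mul ((continuous_gS _).comp (by fun_prop)) |>.mul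
      ((continuous_gS _).comp (by fun_prop))
  · exact continuousOn_id
  · intro t ht
    have : (1 : ℝ) ≤ t := ht.1
    linarith

/-- The lower bound of the transform near a point of the configuration. -/
lemma norm_hilbertT_ge (hK : ∀ z ∈ P, |z.1| ≤ K ∧ |z.2| ≤ K) (hK0 : 0 ≤ K) {n : ℤ} {ξ : ℝ}
    (hξ : |ξ| ≤ 1 / 32) :
    (fib P n : ℝ) / (16 * (10 * K + 3)) ≤
      ‖hilbertT (schS (shiftS P K 1)) (schS (shiftS P K 2)) (schS (shiftS P K 3)) (n + ξ)‖ := by
  classical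
  have hK0' : (0 : ℝ) ≤ K := by exact_mod_cast hK0
  set R₀ : ℝ := 10 * K + 3 with hR₀
  have hR₀pos : 0 < R₀ := by positivity
  set x : ℝ := n + ξ with hx
  rw [hilbertT_eq hK hK0, Complex.norm_real, Real.norm_eq_abs]
  have hintOn : IntegrableOn (hInt P K x) (Ioo 1 R₀) :=
    ((continuousOn_hInt x).integrableOn_Icc).mono_set Ioo_subset_Icc_self
  have hnn : 0 ≤ ∫ t in Ioo (1 : ℝ) R₀, hInt P K x t :=
    setIntegral_nonneg measurableSet_Ioo fun t ht => hInt_nonneg (by linarith [ht.1])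
  rw [abs_of_nonneg hnn]
  -- the intervals around the points `t₀ + T₀`
  set F := P.filter (fun z => z.1 = n) with hF
  set J : ℤ × ℤ → Set ℝ := fun z => Icc ((z.2 : ℝ) + (5 * K + 2) - 1 / 32)
    ((z.2 : ℝ) + (5 * K + 2) + 1 / 32) with hJ
  have hzbd : ∀ z ∈ F, z ∈ P ∧ z.1 = n ∧ (-(K : ℝ) ≤ z.2 ∧ (z.2 : ℝ) ≤ K) := by
    intro z hz
    obtain ⟨h1, h2⟩ := Finset.mem_filter.mp hz
    have h4 := (hK z h1).2
    have h4' : |(z.2 : ℝ)| ≤ K := by exact_mod_cast h4
    exact ⟨h1, h2, abs_le.mp h4'⟩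
  have hJsub : ∀ z ∈ F, J z ⊆ Ioo (1 : ℝ) R₀ := by
    intro z hz t ht
    obtain ⟨_, _, h3⟩ := hzbd z hz
    simp only [hJ, mem_Icc] at ht
    constructor <;> linarith [ht.1, ht.2, h3.1, h3.2]
  have hdisj : Set.Pairwise (↑F) (Function.onFun Disjoint J) := by
    intro z hz w hw hne
    rw [Function.onFun, Set.disjoint_left]
    intro t ht1 ht2
    apply hne
    obtain ⟨_, h2, _⟩ := hzbd z hz
    obtain ⟨_, h2', _⟩ := hzbd w hw
    simp only [hJ, mem_Icc] at ht1 ht2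
    have h5 : |(z.2 : ℝ) - w.2| < 1 := by
      rw [abs_lt]; constructor <;> linarith [ht1.1, ht1.2, ht2.1, ht2.2]
    have h6 : |z.2 - w.2| < 1 := by exact_mod_cast h5
    have h7 : z.2 - w.2 = 0 := Int.abs_lt_one_iff.mp h6
    exact Prod.ext (h2.trans h2'.symm) (by linarith)
  have hunion : (⋃ z ∈ F, J z) ⊆ Ioo (1 : ℝ) R₀ := by
    intro t ht
    simp only [mem_iUnion, exists_prop] at ht
    obtain ⟨z, hz, ht⟩ := ht
    exact hJsub z hz ht
  have hmono : ∫ t in ⋃ z ∈ F, J z, hInt P K x t ≤ ∫ t in Ioo (1 : ℝ) R₀, hInt P K x t := by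
    apply setIntegral_mono_set hintOn
    · filter_upwards [ae_restrict_mem measurableSet_Ioo] with t ht
      exact hInt_nonneg (by linarith [ht.1])
    · exact LE.le.eventuallyLE hunion
  refine le_trans ?_ hmono
  rw [integral_biUnion_finset F (fun z _ => measurableSet_Icc) hdisj
    (fun z hz => hintOn.mono_set (hJsub z hz))]
  have hone : ∀ z ∈ F, 1 / (16 * R₀) ≤ ∫ t in J z, hInt P K x t := by
    intro z hz
    obtain ⟨hzP, hz1, hz2⟩ := hzbd z hz
    have hlow : ∀ t ∈ J z, 1 / R₀ ≤ hInt P K x t := by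
      intro t ht
      have htt := hJsub z hz ht
      simp only [hJ, mem_Icc] at ht
      have hξ' := abs_le.mp hξ
      have htpos : 0 < t := by linarith [htt.1]
      have hmem : ∀ k : ℤ, ∀ _ : k = 1 ∨ k = 2 ∨ k = 3,
          form k z - k * (5 * K + 2) ∈ shiftS P K k := by
        intro k _
        exact Finset.mem_image.mpr ⟨form k z, Finset.mem_image.mpr ⟨z, hzP, rfl⟩, rfl⟩
      have g1 : 1 ≤ gS (shiftS P K 1) (x - t) := by
        apply one_le_gS (hmem 1 (Or.inl rfl))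
        rw [abs_le]
        simp only [form, hx, ← hz1]
        push_cast
        constructor <;> linarith [ht.1, ht.2, hξ'.1, hξ'.2]
      have g2 : 1 ≤ gS (shiftS P K 2) (x - 2 * t) := by
        apply one_le_gS (hmem 2 (Or.inr (Or.inl rfl)))
        rw [abs_le]
        simp only [form, hx, ← hz1]
        push_cast
        constructor <;> linarith [ht.1, ht.2, hξ'.1, hξ'.2]
      have g3 : 1 ≤ gS (shiftS P K 3) (x - 3 * t) := by
        apply one_le_gS (hmem 3 (Or.inr (Or.inr rfl)))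
        rw [abs_le]
        simp only [form, hx, ← hz1]
        push_cast
        constructor <;> linarith [ht.1, ht.2, hξ'.1, hξ'.2]
      unfold hInt
      have h1 : (1 : ℝ) ≤ gS (shiftS P K 1) (x - t) * gS (shiftS P K 2) (x - 2 * t) *
          gS (shiftS P K 3) (x - 3 * t) := by
        have := one_le_mul_of_one_le_of_one_le (one_le_mul_of_one_le_of_one_le g1 g2) g3
        exact this
      calc 1 / R₀ ≤ 1 / t := one_div_le_one_div_of_le htpos htt.2.le
        _ ≤ _ := div_le_div_of_nonneg_right h1 htpos.le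
    have h2 := setIntegral_ge_of_const_le_real (μ := volume) (s := J z)
      (f := hInt P K x) (c := 1 / R₀) measurableSet_Icc
      (by simp [hJ]) hlow (hintOn.mono_set (hJsub z hz))
    have h3 : volume.real (J z) = 1 / 16 := by
      simp only [hJ, Measure.real, Real.volume_Icc]
      rw [ENNReal.toReal_ofReal (by norm_num)]
      ring_nf
    rw [h3] at h2
    calc 1 / (16 * R₀) = 1 / R₀ * (1 / 16) := by field_simp
      _ ≤ _ := h2
  calc (fib P n : ℝ) / (16 * R₀) = ∑ _z ∈ F, 1 / (16 * R₀) := by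
        simp only [Finset.sum_const, nsmul_eq_mul, hF, fib]
        ring
    _ ≤ _ := Finset.sum_le_sum hone

/-- Lower bound for the `ρ`-integral of the transform. -/
lemma lintegral_hilbertT_ge (hK : ∀ z ∈ P, |z.1| ≤ K ∧ |z.2| ≤ K) (hK0 : 0 ≤ K) {ρ : ℝ}
    (hρ : 0 < ρ) :
    ENNReal.ofReal ((1 / 16) * (1 / (16 * (10 * (K : ℝ) + 3))) ^ ρ * wt ρ P) ≤
      ∫⁻ x, ‖hilbertT (schS (shiftS P K 1)) (schS (shiftS P K 2)) (schS (shiftS P K 3)) x‖ₑ ^ ρ := by
  classical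
  have hK0' : (0 : ℝ) ≤ K := by exact_mod_cast hK0
  set R₀ : ℝ := 10 * K + 3 with hR₀
  have hR₀pos : 0 < R₀ := by positivity
  set X := P.image Prod.fst with hX
  set f : ℝ → ℝ≥0∞ := fun x =>
    ‖hilbertT (schS (shiftS P K 1)) (schS (shiftS P K 2)) (schS (shiftS P K 3)) x‖ₑ ^ ρ with hf
  set I : ℤ → Set ℝ := fun n => Icc ((n : ℝ) - 1 / 32) ((n : ℝ) + 1 / 32) with hI
  have hdisj : Set.PairwiseDisjoint (↑X) I := by
    intro n _ m _ hne
    rw [Function.onFun, Set.disjoint_left]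
    intro t ht1 ht2
    apply hne
    simp only [hI, mem_Icc] at ht1 ht2
    have h5 : |(n : ℝ) - m| < 1 := by
      rw [abs_lt]; constructor <;> linarith [ht1.1, ht1.2, ht2.1, ht2.2]
    have h6 : |n - m| < 1 := by exact_mod_cast h5
    have h7 : n - m = 0 := Int.abs_lt_one_iff.mp h6
    linarith
  have hstep : ∀ n ∈ X, ENNReal.ofReal ((1 / 16) * (1 / (16 * R₀)) ^ ρ * ((fib P n : ℝ) ^ ρ)) ≤
      ∫⁻ x in I n, f x := by
    intro n _
    have hlow : ∀ x ∈ I n, ENNReal.ofReal (((fib P n : ℝ) / (16 * R₀)) ^ ρ) ≤ f x := by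
      intro x hx
      simp only [hI, mem_Icc] at hx
      have hξ : |x - n| ≤ 1 / 32 := by
        rw [abs_le]; constructor <;> linarith [hx.1, hx.2]
      have h1 := norm_hilbertT_ge (P := P) hK hK0 (n := n) hξ
      have h2 : (n : ℝ) + (x - n) = x := by ring
      rw [h2] at h1
      rw [hf]
      simp only
      rw [← ofReal_norm, ENNReal.ofReal_rpow_of_nonneg (norm_nonneg _) hρ.le]
      apply ENNReal.ofReal_le_ofReal
      exact Real.rpow_le_rpow (by positivity) h1 hρ.le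
    calc ENNReal.ofReal ((1 / 16) * (1 / (16 * R₀)) ^ ρ * ((fib P n : ℝ) ^ ρ))
        = ENNReal.ofReal (((fib P n : ℝ) / (16 * R₀)) ^ ρ) * volume (I n) := by
          simp only [hI, Real.volume_Icc]
          rw [← ENNReal.ofReal_mul (by positivity)]
          congr 1
          have e : ((fib P n : ℝ) / (16 * R₀)) ^ ρ = (fib P n : ℝ) ^ ρ * (1 / (16 * R₀)) ^ ρ := by
            rw [div_eq_mul_one_div (fib P n : ℝ), Real.mul_rpow (by positivity) (by positivity)]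
          rw [e]
          ring_nf
      _ = ∫⁻ _x in I n, ENNReal.ofReal (((fib P n : ℝ) / (16 * R₀)) ^ ρ) := by
          rw [setLIntegral_const]
      _ ≤ ∫⁻ x in I n, f x := setLIntegral_mono' measurableSet_Icc hlow
  calc ENNReal.ofReal ((1 / 16) * (1 / (16 * R₀)) ^ ρ * wt ρ P)
      = ∑ n ∈ X, ENNReal.ofReal ((1 / 16) * (1 / (16 * R₀)) ^ ρ * ((fib P n : ℝ) ^ ρ)) := by
        unfold wt
        rw [Finset.mul_sum, ENNReal.ofReal_sum_of_nonneg]
        intro n _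
        positivity
    _ ≤ ∑ n ∈ X, ∫⁻ x in I n, f x := Finset.sum_le_sum hstep
    _ = ∫⁻ x in ⋃ n ∈ X, I n, f x :=
        (lintegral_biUnion_finset hdisj (fun _ _ => measurableSet_Icc) f).symm
    _ ≤ ∫⁻ x, f x := setLIntegral_le_lintegral _ _

/-- The single-scale inequality for a configuration, under the boundedness hypothesis. -/
lemma config_ineq {p₁ p₂ p₃ r : ℝ≥0∞} {C : NNReal}
    (hC : ∀ f₁ f₂ f₃ : 𝓢(ℝ, ℂ), eLpNorm (hilbertT f₁ f₂ f₃) r volume ≤
      C * (eLpNorm f₁ p₁ volume * eLpNorm f₂ p₂ volume * eLpNorm f₃ p₃ volume))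
    (hr0 : r ≠ 0) (hrtop : r ≠ ⊤)
    (hK : ∀ z ∈ P, |z.1| ≤ K ∧ |z.2| ≤ K) (hK0 : 0 ≤ K) :
    ((1 / 16) ^ (1 / r.toReal) * (1 / (16 * (10 * (K : ℝ) + 3))) * wt r.toReal P ^ (1 / r.toReal)) ≤
      (C : ℝ) * (((P.image (form 1)).card : ℝ) ^ (1 / p₁.toReal) *
        ((P.image (form 2)).card : ℝ) ^ (1 / p₂.toReal) *
        ((P.image (form 3)).card : ℝ) ^ (1 / p₃.toReal)) := by
  have hK0' : (0 : ℝ) ≤ K := by exact_mod_cast hK0
  set ρ := r.toReal with hρdef
  have hρ : 0 < ρ := ENNReal.toReal_pos hr0 hrtop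
  have hwt : 0 ≤ wt ρ P := Finset.sum_nonneg fun n _ => by positivity
  have h1 := lintegral_hilbertT_ge (P := P) hK hK0 hρ
  have h2 := hC (schS (shiftS P K 1)) (schS (shiftS P K 2)) (schS (shiftS P K 3))
  rw [eLpNorm_eq_lintegral_rpow_enorm_toReal hr0 hrtop] at h2
  have h3 := ENNReal.rpow_le_rpow h1 (show 0 ≤ 1 / ρ by positivity)
  have h4 := le_trans h3 h2
  have hnorm : ∀ (k : ℤ) (p : ℝ≥0∞), eLpNorm (schS (shiftS P K k)) p volume ≤
      ENNReal.ofReal (((P.image (form k)).card : ℝ) ^ (1 / p.toReal)) := by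
    intro k p
    refine le_trans (eLpNorm_schS_le _ _) ?_
    rw [← ENNReal.ofReal_natCast, ENNReal.ofReal_rpow_of_nonneg (Nat.cast_nonneg _)
      (by positivity)]
    apply ENNReal.ofReal_le_ofReal
    apply Real.rpow_le_rpow (Nat.cast_nonneg _) _ (by positivity)
    exact_mod_cast card_shiftS_le P K k
  have h5 : (C : ℝ≥0∞) * (eLpNorm (schS (shiftS P K 1)) p₁ volume *
      eLpNorm (schS (shiftS P K 2)) p₂ volume * eLpNorm (schS (shiftS P K 3)) p₃ volume) ≤
      ENNReal.ofReal ((C : ℝ) * (((P.image (form 1)).card : ℝ) ^ (1 / p₁.toReal) *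
        ((P.image (form 2)).card : ℝ) ^ (1 / p₂.toReal) *
        ((P.image (form 3)).card : ℝ) ^ (1 / p₃.toReal))) := by
    rw [ENNReal.ofReal_mul (NNReal.coe_nonneg _), ENNReal.ofReal_coe_nnreal,
      ENNReal.ofReal_mul (by positivity), ENNReal.ofReal_mul (by positivity)]
    gcongr
    · exact hnorm 1 p₁
    · exact hnorm 2 p₂
    · exact hnorm 3 p₃
  have h6 := le_trans h4 h5
  rw [ENNReal.ofReal_rpow_of_nonneg (by positivity) (by positivity)] at h6
  have h7 := (ENNReal.ofReal_le_ofReal_iff (by positivity)).mp h6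
  have h8 : ((1 / 16) * (1 / (16 * (10 * (K : ℝ) + 3))) ^ ρ * wt ρ P) ^ (1 / ρ) =
      (1 / 16) ^ (1 / ρ) * (1 / (16 * (10 * (K : ℝ) + 3))) * wt ρ P ^ (1 / ρ) := by
    rw [Real.mul_rpow (by positivity) hwt, Real.mul_rpow (by norm_num) (by positivity),
      ← Real.rpow_mul (by positivity), mul_one_div_cancel hρ.ne', Real.rpow_one]
  rw [h8] at h7
  exact h7

end

end Vale.Agent.Lib.P141
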