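import Mathlib
import Vale.Agent.Lib.P141.Output

open MeasureTheory Filter Topology Set
open scoped ENNReal SchwartzMap

namespace Vale.Agent.Lib.P141

lemma exists_bound (P : Finset (ℤ × ℤ)) : ∃ M : ℤ, 0 ≤ M ∧ ∀ z ∈ P, |z.1| ≤ M ∧ |z.2| ≤ M := by
  refine ⟨∑ z ∈ P, (|z.1| + |z.2|), Finset.sum_nonneg fun z _ => by positivity, fun z hz => ?_⟩
  have h := Finset.single_le_sum (f := fun z : ℤ × ℤ => |z.1| + |z.2|)
    (fun z _ => by positivity) hz
  exact ⟨by linarith [abs_nonneg z.2], by linarith [abs_nonneg z.1]⟩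

/-- Product of the sizes of the three projections, with exponents. -/
noncomputable def sizeN (P : Finset (ℤ × ℤ)) (s₁ s₂ s₃ : ℝ) : ℝ :=
  ((P.image (form 1)).card : ℝ) ^ s₁ * ((P.image (form 2)).card : ℝ) ^ s₂ *
    ((P.image (form 3)).card : ℝ) ^ s₃

lemma card_rpow_tower_le (k L : ℤ) (P : Finset (ℤ × ℤ)) (d : ℕ) {s : ℝ} (hs : 0 ≤ s) :
    (((tower L P d).image (form k)).card : ℝ) ^ s ≤ (((P.image (form k)).card : ℝ) ^ s) ^ d := by
  have h2 : (((tower L P d).image (form k)).card : ℝ) ≤ ((P.image (form k)).card : ℝ) ^ d := by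
    exact_mod_cast card_image_form_tower_le k L P d
  calc _ ≤ (((P.image (form k)).card : ℝ) ^ d) ^ s :=
        Real.rpow_le_rpow (Nat.cast_nonneg _) h2 hs
    _ = _ := by
        rw [← Real.rpow_natCast, ← Real.rpow_mul (Nat.cast_nonneg _), mul_comm,
          Real.rpow_mul (Nat.cast_nonneg _), Real.rpow_natCast]

lemma sizeN_tower_le (L : ℤ) (P : Finset (ℤ × ℤ)) (d : ℕ) {s₁ s₂ s₃ : ℝ} (h₁ : 0 ≤ s₁)
    (h₂ : 0 ≤ s₂) (h₃ : 0 ≤ s₃) : sizeN (tower L P d) s₁ s₂ s₃ ≤ sizeN P s₁ s₂ s₃ ^ d := by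
  unfold sizeN
  rw [mul_pow, mul_pow]
  have a₁ := card_rpow_tower_le 1 L P d h₁
  have a₂ := card_rpow_tower_le 2 L P d h₂
  have a₃ := card_rpow_tower_le 3 L P d h₃
  gcongr

lemma rpow_pow_comm {a : ℝ} (ha : 0 ≤ a) (d : ℕ) (s : ℝ) : (a ^ d) ^ s = (a ^ s) ^ d := by
  rw [← Real.rpow_natCast a d, ← Real.rpow_mul ha, mul_comm, Real.rpow_mul ha, Real.rpow_natCast]

lemma real_step {a b Ld Nd Wd C : ℝ} (ha : 0 < a) (hb : 0 < b) (hLd : 0 < Ld) (hNd : 0 < Nd)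
    (h : a * (b * (1 / Ld)) * Wd ≤ C * Nd) : a * b * (Wd / (Ld * Nd)) ≤ C := by
  have e : a * b * (Wd / (Ld * Nd)) = (a * (b * (1 / Ld)) * Wd) / Nd := by
    field_simp
  rw [e, div_le_iff₀ hNd]
  exact h

lemma K_step {M Ld K : ℝ} (hM : 0 ≤ M) (hLd : 1 ≤ Ld) (hK : K = 2 * M * Ld) :
    1 / (16 * (20 * M + 3)) * (1 / Ld) ≤ 1 / (16 * (10 * K + 3)) := by
  have hpos : 0 < Ld := by linarith
  have h1 : (0 : ℝ) < 16 * (20 * M + 3) := by positivity
  have h2 : (0 : ℝ) < 16 * (10 * K + 3) := by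
    rw [hK]; positivity
  rw [div_mul_div_comm, mul_one]
  apply one_div_le_one_div_of_le h2
  rw [hK]
  nlinarith

/-- The inequality at level `d`. -/
lemma level_ineq {p₁ p₂ p₃ r : ℝ≥0∞} {C : NNReal}
    (hC : ∀ f₁ f₂ f₃ : 𝓢(ℝ, ℂ), eLpNorm (hilbertT f₁ f₂ f₃) r volume ≤
      C * (eLpNorm f₁ p₁ volume * eLpNorm f₂ p₂ volume * eLpNorm f₃ p₃ volume))
    (hr0 : r ≠ 0) (hrtop : r ≠ ⊤)
    {P : Finset (ℤ × ℤ)} {L : ℤ} (hL : 2 ≤ L) (hP : Admissible L P)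
    {M : ℤ} (hM0 : 0 ≤ M) (hM : ∀ z ∈ P, |z.1| ≤ M ∧ |z.2| ≤ M)
    (hNpos : 0 < sizeN P (1 / p₁.toReal) (1 / p₂.toReal) (1 / p₃.toReal)) (d : ℕ) :
    (1 / 16) ^ (1 / r.toReal) * (1 / (16 * (20 * (M : ℝ) + 3))) *
      ((wt r.toReal P ^ (1 / r.toReal)) /
        (L * sizeN P (1 / p₁.toReal) (1 / p₂.toReal) (1 / p₃.toReal))) ^ d ≤ (C : ℝ) := by
  have hρ : 0 < r.toReal := ENNReal.toReal_pos hr0 hrtop
  have hL0 : (0 : ℤ) < L := by linarith
  have hL0' : (0 : ℝ) < L := by exact_mod_cast hL0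
  have hL1' : (1 : ℝ) ≤ L := by
    have : (1 : ℤ) ≤ L := by linarith
    exact_mod_cast this
  have hM0' : (0 : ℝ) ≤ M := by exact_mod_cast hM0
  have hwt : 0 ≤ wt r.toReal P := Finset.sum_nonneg fun n _ => by positivity
  have hLd : (1 : ℝ) ≤ (L : ℝ) ^ d := one_le_pow₀ hL1'
  have hK0 : 0 ≤ 2 * M * L ^ d := by positivity
  have hbd : ∀ z ∈ tower L P d, |z.1| ≤ 2 * M * L ^ d ∧ |z.2| ≤ 2 * M * L ^ d := by
    intro z hz
    obtain ⟨h1, h2⟩ := tower_bound hL hM0 hM d z hz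
    exact ⟨by linarith, by linarith⟩
  have h1 := config_ineq hC hr0 hrtop hbd hK0
  rw [wt_tower hL0.ne' hP, rpow_pow_comm hwt] at h1
  have hsize := sizeN_tower_le L P d (s₁ := 1 / p₁.toReal) (s₂ := 1 / p₂.toReal)
    (s₃ := 1 / p₃.toReal) (by positivity) (by positivity) (by positivity)
  have h2 := le_trans h1 (mul_le_mul_of_nonneg_left hsize (NNReal.coe_nonneg C))
  have hKstep := K_step (M := (M : ℝ)) (Ld := (L : ℝ) ^ d) (K := ((2 * M * L ^ d : ℤ) : ℝ)) hM0' hLd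
    (by push_cast; ring)
  have hc0 : (0 : ℝ) < (1 / 16) ^ (1 / r.toReal) := by positivity
  have hWd : 0 ≤ (wt r.toReal P ^ (1 / r.toReal)) ^ d := by positivity
  have h3 : (1 / 16) ^ (1 / r.toReal) * ((1 / (16 * (20 * (M : ℝ) + 3))) * (1 / (L : ℝ) ^ d)) *
      (wt r.toReal P ^ (1 / r.toReal)) ^ d ≤
      (C : ℝ) * sizeN P (1 / p₁.toReal) (1 / p₂.toReal) (1 / p₃.toReal) ^ d := by
    refine le_trans ?_ h2
    exact mul_le_mul_of_nonneg_right (mul_le_mul_of_nonneg_left hKstep hc0.le) hWd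
  have h4 := real_step hc0 (by positivity) (by positivity) (pow_pos hNpos d) h3
  rw [div_pow, mul_pow]
  exact h4

/-- The master criterion: an admissible configuration whose weighted count beats the size of its
three input projections rules out boundedness at the tuple. -/
theorem not_boundedAt_of_config {p₁ p₂ p₃ r : ℝ≥0∞} (hr0 : r ≠ 0) (hrtop : r ≠ ⊤)
    (P : Finset (ℤ × ℤ)) {L : ℤ} (hL : 2 ≤ L) (hP : Admissible L P)
    (hgt : (L : ℝ) * (((P.image (form 1)).card : ℝ) ^ (1 / p₁.toReal) *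
        ((P.image (form 2)).card : ℝ) ^ (1 / p₂.toReal) *
        ((P.image (form 3)).card : ℝ) ^ (1 / p₃.toReal)) < wt r.toReal P ^ (1 / r.toReal)) :
    ¬ BoundedAt p₁ p₂ p₃ r := by
  rintro ⟨C, hC⟩
  have hρ : 0 < r.toReal := ENNReal.toReal_pos hr0 hrtop
  obtain ⟨M, hM0, hM⟩ := exists_bound P
  have hL0 : (0 : ℤ) < L := by linarith
  have hL0' : (0 : ℝ) < L := by exact_mod_cast hL0
  have hM0' : (0 : ℝ) ≤ M := by exact_mod_cast hM0
  have hwt : 0 ≤ wt r.toReal P := Finset.sum_nonneg fun n _ => by positivity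
  have hWpos : 0 < wt r.toReal P ^ (1 / r.toReal) := lt_of_le_of_lt (by positivity) hgt
  have hPne : P.Nonempty := by
    by_contra hne
    rw [Finset.not_nonempty_iff_eq_empty] at hne
    have h0 : wt r.toReal P = 0 := by simp [wt, hne]
    rw [h0, Real.zero_rpow (by positivity)] at hWpos
    exact lt_irrefl _ hWpos
  have hn_pos : ∀ k : ℤ, (0 : ℝ) < ((P.image (form k)).card : ℝ) := by
    intro k
    have : (P.image (form k)).Nonempty := hPne.image _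
    exact_mod_cast this.card_pos
  have hNpos : 0 < sizeN P (1 / p₁.toReal) (1 / p₂.toReal) (1 / p₃.toReal) := by
    unfold sizeN
    have h1 := hn_pos 1
    have h2 := hn_pos 2
    have h3 := hn_pos 3
    positivity
  have hq1 : 1 < (wt r.toReal P ^ (1 / r.toReal)) /
      (L * sizeN P (1 / p₁.toReal) (1 / p₂.toReal) (1 / p₃.toReal)) := by
    rw [lt_div_iff₀ (by positivity), one_mul]
    exact hgt
  have hcpos : 0 < (1 / 16 : ℝ) ^ (1 / r.toReal) * (1 / (16 * (20 * (M : ℝ) + 3))) := by positivity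
  have htend := (tendsto_pow_atTop_atTop_of_one_lt hq1).const_mul_atTop hcpos
  obtain ⟨d, hd⟩ := (htend.eventually (eventually_gt_atTop (C : ℝ))).exists
  exact absurd (level_ineq hC hr0 hrtop hL hP hM0 hM hNpos d) (not_le.mpr hd)

end Vale.Agent.Lib.P141
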