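import Mathlib

open Finset

namespace Vale.Agent.Lib.P141

section hash
variable {I : Type} [Fintype I]

/-- A linear hash of integer vectors into `ZMod ℓ`, with parameter `g`. -/
noncomputable def hsh (ℓ : ℕ) (e : I ≃ Fin (Fintype.card I)) (g : ZMod ℓ) (v : I → ℤ) : ZMod ℓ :=
  ∑ i, (v i : ZMod ℓ) * g ^ (e i : ℕ)

variable {ℓ : ℕ} {e : I ≃ Fin (Fintype.card I)}

lemma hsh_sub (g : ZMod ℓ) (v w : I → ℤ) : hsh ℓ e g (v - w) = hsh ℓ e g v - hsh ℓ e g w := by
  unfold hsh
  rw [← Finset.sum_sub_distrib]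
  refine Finset.sum_congr rfl fun i _ => ?_
  simp only [Pi.sub_apply]
  push_cast
  ring

lemma hsh_form (g : ZMod ℓ) (k : ℤ) (v w : I → ℤ) :
    hsh ℓ e g (fun i => v i - k * w i) = hsh ℓ e g v - (k : ZMod ℓ) * hsh ℓ e g w := by
  unfold hsh
  rw [Finset.mul_sum, ← Finset.sum_sub_distrib]
  refine Finset.sum_congr rfl fun i _ => ?_
  push_cast
  ring

/-- A nonzero small vector is annihilated by at most `card I` values of `g`. -/
lemma card_filter_hsh_eq_zero_le [Fact ℓ.Prime] {v : I → ℤ} (hv : v ≠ 0)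
    (hsmall : ∀ i, |v i| < ℓ) :
    (univ.filter (fun g : ZMod ℓ => hsh ℓ e g v = 0)).card ≤ Fintype.card I := by
  classical
  set p : Polynomial (ZMod ℓ) := ∑ i, Polynomial.C (v i : ZMod ℓ) * Polynomial.X ^ (e i : ℕ) with hp
  have heval : ∀ g, p.eval g = hsh ℓ e g v := by
    intro g
    simp [hp, hsh, Polynomial.eval_finsetSum]
  obtain ⟨i₀, hi₀⟩ : ∃ i, v i ≠ 0 := by
    by_contra h
    push Not at h
    exact hv (funext h)
  have hcoeff : p.coeff (e i₀ : ℕ) = (v i₀ : ZMod ℓ) := by
    rw [hp, Polynomial.finsetSum_coeff]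
    rw [Finset.sum_eq_single i₀]
    · simp
    · intro j _ hj
      rw [Polynomial.coeff_C_mul_X_pow, if_neg]
      intro h
      exact hj (e.injective (Fin.ext h.symm))
    · simp
  have hne : (v i₀ : ZMod ℓ) ≠ 0 := by
    intro h
    rw [ZMod.intCast_zmod_eq_zero_iff_dvd] at h
    exact hi₀ (Int.eq_zero_of_abs_lt_dvd h (hsmall i₀))
  have hp0 : p ≠ 0 := by
    intro h
    rw [h] at hcoeff
    simp at hcoeff
    exact hne hcoeff.symm
  have hdeg : p.natDegree ≤ Fintype.card I := by
    rw [hp]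
    apply Polynomial.natDegree_sum_le_of_forall_le
    intro i _
    refine le_trans (Polynomial.natDegree_C_mul_X_pow_le _ _) ?_
    exact (e i).isLt.le
  have hsub : univ.filter (fun g : ZMod ℓ => hsh ℓ e g v = 0) ⊆ p.roots.toFinset := by
    intro g hg
    rw [Finset.mem_filter] at hg
    rw [Multiset.mem_toFinset, Polynomial.mem_roots hp0, Polynomial.IsRoot, heval]
    exact hg.2
  calc _ ≤ p.roots.toFinset.card := Finset.card_le_card hsub
    _ ≤ Multiset.card p.roots := Multiset.toFinset_card_le _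
    _ ≤ p.natDegree := Polynomial.card_roots' p
    _ ≤ _ := hdeg

/-- Sum over `g` of the number of pairs annihilated. -/
lemma sum_card_filter_le [Fact ℓ.Prime] [NeZero ℓ] {ι : Type} [DecidableEq ι] (S : Finset ι)
    (vec : ι → I → ℤ) (hne : ∀ s ∈ S, vec s ≠ 0) (hsmall : ∀ s ∈ S, ∀ i, |vec s i| < ℓ) :
    ∑ g : ZMod ℓ, (S.filter (fun s => hsh ℓ e g (vec s) = 0)).card ≤ S.card * Fintype.card I := by
  classical
  have h1 : ∑ g : ZMod ℓ, (S.filter (fun s => hsh ℓ e g (vec s) = 0)).card =
      ∑ s ∈ S, (univ.filter (fun g : ZMod ℓ => hsh ℓ e g (vec s) = 0)).card := by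
    simp only [Finset.card_filter]
    rw [Finset.sum_comm]
  rw [h1]
  calc _ ≤ ∑ _s ∈ S, Fintype.card I :=
        Finset.sum_le_sum fun s hs => card_filter_hsh_eq_zero_le (hne s hs) (hsmall s hs)
    _ = _ := by simp

end hash

/-- Counting lemma: a map on a finite set is injective on a subset `R` which misses at most as many
elements as there are ordered colliding pairs. -/
lemma exists_inj_subset {α β : Type} [DecidableEq α] [DecidableEq β] (U : Finset α) (h : α → β) :
    ∃ R ⊆ U, Set.InjOn h (↑R : Set α) ∧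
      U.card ≤ R.card + (U.offDiag.filter (fun p => h p.1 = h p.2)).card := by
  classical
  rcases U.eq_empty_or_nonempty with rfl | hUne
  · exact ⟨∅, Finset.Subset.refl _, by simp, by simp⟩
  haveI : Nonempty α := ⟨hUne.choose⟩
  -- choose a representative in each fibre
  have hrep : ∀ y ∈ U.image h, ∃ u ∈ U, h u = y := by
    intro y hy
    exact Finset.mem_image.mp hy
  choose! rep hrep1 hrep2 using hrep
  set R := (U.image h).image rep with hR
  have hRsub : R ⊆ U := by
    intro u hu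
    obtain ⟨y, hy, rfl⟩ := Finset.mem_image.mp hu
    exact hrep1 y hy
  have hinj : Set.InjOn h (↑R : Set α) := by
    intro u hu v hv huv
    obtain ⟨y, hy, rfl⟩ := Finset.mem_image.mp (Finset.mem_coe.mp hu)
    obtain ⟨y', hy', rfl⟩ := Finset.mem_image.mp (Finset.mem_coe.mp hv)
    rw [hrep2 y hy, hrep2 y' hy'] at huv
    rw [huv]
  refine ⟨R, hRsub, hinj, ?_⟩
  have hle : (U \ R).card ≤ (U.offDiag.filter (fun p => h p.1 = h p.2)).card := by
    apply Finset.card_le_card_of_injOn (fun u => (u, rep (h u)))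
    · intro u hu
      have hu' := Finset.mem_coe.mp hu
      obtain ⟨hu1, hu2⟩ := Finset.mem_sdiff.mp hu'
      have hy : h u ∈ U.image h := Finset.mem_image_of_mem _ hu1
      simp only [Finset.coe_filter, Set.mem_ofPred_eq, Finset.mem_offDiag]
      refine ⟨⟨hu1, hrep1 _ hy, ?_⟩, (hrep2 _ hy).symm⟩
      intro heq
      apply hu2
      rw [heq]
      exact Finset.mem_image_of_mem _ hy
    · intro u _ v _ huv
      exact (Prod.mk.inj huv).1
  have h3 : U.card = (U \ R).card + R.card := (Finset.card_sdiff_add_card_eq_card hRsub).symm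
  omega

end Vale.Agent.Lib.P141
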