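import Mathlib
import Vale.Agent.Lib.P141.Hash
import Vale.Agent.Lib.P141.Tensor

open Finset

namespace Vale.Agent.Lib.P141

section oneshot
variable {I : Type} [Fintype I]

/-- The `x` part of a word of pairs. -/
def fxW (w : I → ℤ × ℤ) : I → ℤ := fun i => (w i).1
/-- The `t` part of a word of pairs. -/
def ftW (w : I → ℤ × ℤ) : I → ℤ := fun i => (w i).2
/-- The word of the form `x - j t`. -/
def faW (j : ℕ) (w : I → ℤ × ℤ) : I → ℤ := fun i => (w i).1 - (j : ℤ) * (w i).2

variable (T : Finset (I → ℤ × ℤ))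

/-- The hashed configuration. -/
noncomputable def hashedP (ℓ : ℕ) (e : I ≃ Fin (Fintype.card I)) (g : ZMod ℓ) : Finset (ℤ × ℤ) :=
  T.image (fun w => (((hsh ℓ e g (fxW w)).val : ℤ), ((hsh ℓ e g (ftW w)).val : ℤ)))

variable {T}
variable {ℓ : ℕ} [Fact ℓ.Prime] {e : I ≃ Fin (Fintype.card I)}

lemma hashedP_bound (g : ZMod ℓ) : ∀ z ∈ hashedP T ℓ e g, |z.1| ≤ (ℓ : ℤ) ∧ |z.2| ≤ (ℓ : ℤ) := by
  intro z hz
  obtain ⟨w, _, rfl⟩ := Finset.mem_image.mp hz
  have hℓ : NeZero ℓ := ⟨(Fact.out : ℓ.Prime).ne_zero⟩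
  have h1 := ZMod.val_lt (hsh ℓ e g (fxW w))
  have h2 := ZMod.val_lt (hsh ℓ e g (ftW w))
  simp only
  constructor <;> rw [abs_of_nonneg (by positivity)] <;> omega

/-- The projections of the hashed configuration are controlled by those of `T`. -/
lemma card_image_form_hashedP_le (g : ZMod ℓ) (j : ℕ) :
    ((hashedP T ℓ e g).image (form (j : ℤ))).card ≤ (T.image (faW j)).card * (j + 1) := by
  classical
  have hℓ : NeZero ℓ := ⟨(Fact.out : ℓ.Prime).ne_zero⟩
  have hℓpos : (0 : ℤ) < ℓ := by exact_mod_cast (Fact.out : ℓ.Prime).pos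
  have hsub : (hashedP T ℓ e g).image (form (j : ℤ)) ⊆
      ((T.image (faW j)) ×ˢ (Finset.range (j + 1))).image
        (fun q => ((hsh ℓ e g q.1).val : ℤ) - (ℓ : ℤ) * (q.2 : ℤ)) := by
    intro n hn
    obtain ⟨z, hz, rfl⟩ := Finset.mem_image.mp hn
    obtain ⟨w, hw, rfl⟩ := Finset.mem_image.mp hz
    simp only [form]
    set A := hsh ℓ e g (fxW w) with hA
    set B := hsh ℓ e g (ftW w) with hB
    set R := hsh ℓ e g (faW j w) with hR
    have hRform : R = A - (j : ZMod ℓ) * B := by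
      rw [hR, hA, hB]
      exact_mod_cast hsh_form g (j : ℤ) (fxW w) (ftW w)
    have hA1 := ZMod.val_lt A
    have hB1 := ZMod.val_lt B
    have hR1 := ZMod.val_lt R
    -- divisibility
    have hdvd : (ℓ : ℤ) ∣ (R.val : ℤ) - ((A.val : ℤ) - (j : ℤ) * (B.val : ℤ)) := by
      rw [← ZMod.intCast_zmod_eq_zero_iff_dvd]
      push_cast
      rw [ZMod.natCast_val, ZMod.natCast_val, ZMod.natCast_val]
      simp only [ZMod.cast_id', id_eq]
      rw [hRform]
      ring
    obtain ⟨m, hm⟩ := hdvd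
    have hA2 : (A.val : ℤ) < ℓ := by exact_mod_cast hA1
    have hB2 : (B.val : ℤ) < ℓ := by exact_mod_cast hB1
    have hR2 : (R.val : ℤ) < ℓ := by exact_mod_cast hR1
    have hA0 : (0 : ℤ) ≤ A.val := by positivity
    have hB0 : (0 : ℤ) ≤ B.val := by positivity
    have hR0 : (0 : ℤ) ≤ R.val := by positivity
    have hj0 : (0 : ℤ) ≤ (j : ℤ) := by positivity
    have hjB : (j : ℤ) * B.val ≤ j * (ℓ - 1) := by
      apply mul_le_mul_of_nonneg_left _ hj0
      linarith
    have hjB0 : (0 : ℤ) ≤ (j : ℤ) * B.val := by positivity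
    -- `m` is between `0` and `j`
    have hm0 : 0 ≤ m := by
      by_contra hneg
      push Not at hneg
      have : (ℓ : ℤ) * m ≤ (ℓ : ℤ) * (-1) := by
        apply mul_le_mul_of_nonneg_left _ hℓpos.le
        linarith
      nlinarith
    have hmj : m ≤ j := by
      by_contra hneg
      push Not at hneg
      have : (ℓ : ℤ) * ((j : ℤ) + 1) ≤ (ℓ : ℤ) * m := by
        apply mul_le_mul_of_nonneg_left _ hℓpos.le
        linarith
      nlinarith
    refine Finset.mem_image.mpr ⟨(faW j w, m.toNat), Finset.mem_product.mpr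
      ⟨Finset.mem_image.mpr ⟨w, hw, rfl⟩, Finset.mem_range.mpr (by omega)⟩, ?_⟩
    simp only
    have hmt : ((m.toNat : ℕ) : ℤ) = m := Int.toNat_of_nonneg hm0
    rw [hmt, ← hR]
    linarith
  calc _ ≤ _ := Finset.card_le_card hsub
    _ ≤ _ := Finset.card_image_le
    _ = _ := by rw [Finset.card_product, Finset.card_range]

/-- Ordered pairs of distinct points of `X` with the same hash. -/
noncomputable def collX (X : Finset (I → ℤ)) (ℓ : ℕ) (e : I ≃ Fin (Fintype.card I)) (g : ZMod ℓ) :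
    Finset ((I → ℤ) × (I → ℤ)) :=
  X.offDiag.filter (fun p => hsh ℓ e g (p.1 - p.2) = 0)

/-- The words in `T` above `x`. -/
noncomputable def fibW (T : Finset (I → ℤ × ℤ)) (x : I → ℤ) : Finset (I → ℤ × ℤ) :=
  T.filter (fun w => fxW w = x)

/-- Ordered pairs of distinct words above `x` with the same hash of the `t` part. -/
noncomputable def collT (T : Finset (I → ℤ × ℤ)) (ℓ : ℕ) (e : I ≃ Fin (Fintype.card I))
    (g : ZMod ℓ) (x : I → ℤ) : Finset ((I → ℤ × ℤ) × (I → ℤ × ℤ)) :=
  (fibW T x).offDiag.filter (fun p => hsh ℓ e g (ftW p.1 - ftW p.2) = 0)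

/-- There is a good value of the hash parameter. -/
lemma exists_good_g {M₀ : ℤ} (hM₀ : ∀ w ∈ T, ∀ i, |(w i).1| ≤ M₀ ∧ |(w i).2| ≤ M₀)
    (hℓ₁ : 2 * M₀ < ℓ) {F : ℕ} (hF : ∀ x ∈ T.image fxW, (fibW T x).card = F)
    (hℓ₂ : 2 * Fintype.card I * ((T.image fxW).card + 2 * F) ≤ ℓ)
    (hpos : 0 < Fintype.card I * ((T.image fxW).card + 2 * F)) :
    ∃ g : ZMod ℓ, 2 * (F * (collX (T.image fxW) ℓ e g).card +
        2 * ∑ x ∈ T.image fxW, (collT T ℓ e g x).card) ≤ F * (T.image fxW).card := by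
  classical
  have hℓne : NeZero ℓ := ⟨(Fact.out : ℓ.Prime).ne_zero⟩
  set X := T.image fxW with hX
  have hXsmall : ∀ x ∈ X, ∀ i, |x i| ≤ M₀ := by
    intro x hx i
    obtain ⟨w, hw, rfl⟩ := Finset.mem_image.mp hx
    exact (hM₀ w hw i).1
  have hs1 : ∑ g : ZMod ℓ, (collX X ℓ e g).card ≤ X.offDiag.card * Fintype.card I := by
    apply sum_card_filter_le
    · intro p hp
      obtain ⟨_, _, hne⟩ := Finset.mem_offDiag.mp hp
      exact sub_ne_zero.mpr hne
    · intro p hp i
      obtain ⟨h1, h2, _⟩ := Finset.mem_offDiag.mp hp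
      have h3 := abs_le.mp (hXsmall _ h1 i)
      have h4 := abs_le.mp (hXsmall _ h2 i)
      simp only [Pi.sub_apply]
      rw [abs_lt]
      constructor <;> linarith [h3.1, h3.2, h4.1, h4.2]
  have hs2 : ∀ x ∈ X, ∑ g : ZMod ℓ, (collT T ℓ e g x).card ≤ (F * F) * Fintype.card I := by
    intro x hx
    calc _ ≤ (fibW T x).offDiag.card * Fintype.card I := by
          apply sum_card_filter_le
          · intro p hp
            obtain ⟨h1, h2, hne⟩ := Finset.mem_offDiag.mp hp
            intro h0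
            apply hne
            have h5 : ftW p.1 = ftW p.2 := sub_eq_zero.mp h0
            have h6 : fxW p.1 = fxW p.2 := by
              rw [(Finset.mem_filter.mp h1).2, (Finset.mem_filter.mp h2).2]
            funext i
            exact Prod.ext (congrFun h6 i) (congrFun h5 i)
          · intro p hp i
            obtain ⟨h1, h2, _⟩ := Finset.mem_offDiag.mp hp
            have h3 := abs_le.mp (hM₀ _ (Finset.mem_filter.mp h1).1 i).2
            have h4 := abs_le.mp (hM₀ _ (Finset.mem_filter.mp h2).1 i).2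
            simp only [Pi.sub_apply, ftW]
            rw [abs_lt]
            constructor <;> linarith [h3.1, h3.2, h4.1, h4.2]
      _ ≤ (F * F) * Fintype.card I := by
          apply Nat.mul_le_mul_right
          rw [Finset.offDiag_card, hF x hx]
          exact Nat.sub_le _ _
  set B : ZMod ℓ → ℕ := fun g => F * (collX X ℓ e g).card + 2 * ∑ x ∈ X, (collT T ℓ e g x).card
    with hB
  have hsum : ∑ g : ZMod ℓ, B g ≤ F * X.card * Fintype.card I * (X.card + 2 * F) := by
    simp only [hB, Finset.sum_add_distrib, ← Finset.mul_sum]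
    have h1 : ∑ g : ZMod ℓ, (collX X ℓ e g).card ≤ X.card * X.card * Fintype.card I := by
      refine le_trans hs1 (Nat.mul_le_mul_right _ ?_)
      rw [Finset.offDiag_card]
      exact Nat.sub_le _ _
    have h2 : ∑ g : ZMod ℓ, ∑ x ∈ X, (collT T ℓ e g x).card ≤ X.card * ((F * F) * Fintype.card I) := by
      rw [Finset.sum_comm]
      calc _ ≤ ∑ _x ∈ X, (F * F) * Fintype.card I := Finset.sum_le_sum hs2
        _ = _ := by simp
    calc _ ≤ F * (X.card * X.card * Fintype.card I) + 2 * (X.card * ((F * F) * Fintype.card I)) :=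
          Nat.add_le_add (Nat.mul_le_mul_left _ h1) (Nat.mul_le_mul_left _ h2)
      _ = _ := by ring
  obtain ⟨g, _, hg⟩ := Finset.exists_le_of_sum_le (s := Finset.univ) (f := fun g => ℓ * B g)
    (g := fun _ => ∑ g : ZMod ℓ, B g) Finset.univ_nonempty (by
      simp [Finset.mul_sum, ZMod.card])
  refine ⟨g, ?_⟩
  have h1 : ℓ * B g ≤ F * X.card * Fintype.card I * (X.card + 2 * F) := le_trans hg hsum
  have h2 : (2 * Fintype.card I * (X.card + 2 * F)) * B g ≤ F * X.card * Fintype.card I * (X.card + 2 * F) :=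
    le_trans (Nat.mul_le_mul_right _ hℓ₂) h1
  have h3 : (Fintype.card I * (X.card + 2 * F)) * (2 * B g) ≤ (Fintype.card I * (X.card + 2 * F)) * (F * X.card) := by
    calc _ = (2 * Fintype.card I * (X.card + 2 * F)) * B g := by ring
      _ ≤ _ := h2
      _ = _ := by ring
  exact Nat.le_of_mul_le_mul_left h3 hpos

/-- Lower bound of the weighted count of the hashed configuration. -/
lemma wt_hashedP_ge {g : ZMod ℓ} {F : ℕ} (hF0 : 0 < F)
    (hF : ∀ x ∈ T.image fxW, (fibW T x).card = F)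
    (hg : 2 * (F * (collX (T.image fxW) ℓ e g).card +
        2 * ∑ x ∈ T.image fxW, (collT T ℓ e g x).card) ≤ F * (T.image fxW).card)
    {ρ : ℝ} (hρ : 0 < ρ) :
    ((T.image fxW).card / 2 : ℝ) * ((F : ℝ) / 2) ^ ρ ≤ wt ρ (hashedP T ℓ e g) := by
  classical
  have hℓne : NeZero ℓ := ⟨(Fact.out : ℓ.Prime).ne_zero⟩
  set X := T.image fxW with hX
  set h : (I → ℤ) → ZMod ℓ := hsh ℓ e g with hh
  obtain ⟨R, hRsub, hRinj, hRcard⟩ := exists_inj_subset X h
  have hcollEq : (X.offDiag.filter (fun p => h p.1 = h p.2)) = collX X ℓ e g := by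
    unfold collX
    refine Finset.filter_congr fun p _ => ?_
    rw [hh, hsh_sub, sub_eq_zero]
  rw [hcollEq] at hRcard
  set bad := X.filter (fun x => F < 2 * (collT T ℓ e g x).card) with hbad
  set Good := R \ bad with hGood
  have hbadsum : bad.card * F ≤ 2 * ∑ x ∈ X, (collT T ℓ e g x).card := by
    calc bad.card * F = ∑ _x ∈ bad, F := by simp
      _ ≤ ∑ x ∈ bad, 2 * (collT T ℓ e g x).card :=
          Finset.sum_le_sum fun x hx => (Finset.mem_filter.mp hx).2.le
      _ ≤ ∑ x ∈ X, 2 * (collT T ℓ e g x).card :=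
          Finset.sum_le_sum_of_subset (Finset.filter_subset _ _)
      _ = _ := by rw [Finset.mul_sum]
  have hGoodCard : X.card ≤ 2 * Good.card := by
    have h1 : R.card ≤ Good.card + bad.card := by
      have h2 := Finset.card_le_card (show R ⊆ Good ∪ bad by
        intro x hx
        by_cases hxb : x ∈ bad
        · exact Finset.mem_union_right _ hxb
        · exact Finset.mem_union_left _ (Finset.mem_sdiff.mpr ⟨hx, hxb⟩))
      exact le_trans h2 (Finset.card_union_le _ _)
    have h3 : F * X.card ≤ F * (2 * Good.card) := by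
      have h4 : F * X.card ≤ F * (R.card + (collX X ℓ e g).card) := Nat.mul_le_mul_left _ hRcard
      have h5 : F * R.card ≤ F * (Good.card + bad.card) := Nat.mul_le_mul_left _ h1
      nlinarith [hbadsum, hg, h4, h5]
    exact Nat.le_of_mul_le_mul_left h3 hF0
  -- the fibre lower bound
  set y : (I → ℤ) → ℤ := fun x => ((h x).val : ℤ) with hy
  have hfib : ∀ x ∈ Good, (F : ℝ) / 2 ≤ (fib (hashedP T ℓ e g) (y x) : ℝ) := by
    intro x hxG
    obtain ⟨hxR, hxb⟩ := Finset.mem_sdiff.mp hxG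
    have hxX := hRsub hxR
    have hcoll : 2 * (collT T ℓ e g x).card ≤ F := by
      by_contra hlt
      push Not at hlt
      exact hxb (Finset.mem_filter.mpr ⟨hxX, hlt⟩)
    set U := fibW T x with hU
    obtain ⟨R', hR'sub, hR'inj, hR'card⟩ := exists_inj_subset U (fun w => h (ftW w))
    have hcollEq' : (U.offDiag.filter (fun p => h (ftW p.1) = h (ftW p.2))) = collT T ℓ e g x := by
      unfold collT
      refine Finset.filter_congr fun p _ => ?_
      rw [hh, hsh_sub, sub_eq_zero]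
    rw [hcollEq', hF x hxX] at hR'card
    have hsubfib : R'.image (fun w => (y x, ((h (ftW w)).val : ℤ))) ⊆
        (hashedP T ℓ e g).filter (fun z => z.1 = y x) := by
      intro z hz
      obtain ⟨w, hw, rfl⟩ := Finset.mem_image.mp hz
      have hwU := hR'sub hw
      obtain ⟨hwT, hwx⟩ := Finset.mem_filter.mp hwU
      refine Finset.mem_filter.mpr ⟨Finset.mem_image.mpr ⟨w, hwT, ?_⟩, rfl⟩
      simp only [hy, hh]
      rw [hwx]
    have hcardimg : (R'.image (fun w => (y x, ((h (ftW w)).val : ℤ)))).card = R'.card := by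
      apply Finset.card_image_of_injOn
      intro a ha b hb hab
      apply hR'inj ha hb
      have h7 : ((h (ftW a)).val : ℤ) = ((h (ftW b)).val : ℤ) := (Prod.mk.inj hab).2
      have h8 : (h (ftW a)).val = (h (ftW b)).val := by exact_mod_cast h7
      exact ZMod.val_injective ℓ h8
    have hle : R'.card ≤ fib (hashedP T ℓ e g) (y x) := by
      rw [← hcardimg]
      exact Finset.card_le_card hsubfib
    have hfinal : F ≤ 2 * fib (hashedP T ℓ e g) (y x) := by omega
    have hfinal' : (F : ℝ) ≤ 2 * (fib (hashedP T ℓ e g) (y x) : ℝ) := by exact_mod_cast hfinal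
    linarith
  -- the sum
  have hyinj : Set.InjOn y (↑Good : Set (I → ℤ)) := by
    intro a ha b hb hab
    apply hRinj (Finset.mem_coe.mpr (Finset.mem_sdiff.mp (Finset.mem_coe.mp ha)).1)
      (Finset.mem_coe.mpr (Finset.mem_sdiff.mp (Finset.mem_coe.mp hb)).1)
    have h8 : (h a).val = (h b).val := by
      have hab' : ((h a).val : ℤ) = ((h b).val : ℤ) := hab
      exact_mod_cast hab'
    exact ZMod.val_injective ℓ h8
  have hsubX : Good.image y ⊆ (hashedP T ℓ e g).image Prod.fst := by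
    intro n hn
    obtain ⟨x, hx, rfl⟩ := Finset.mem_image.mp hn
    obtain ⟨hxR, _⟩ := Finset.mem_sdiff.mp hx
    obtain ⟨w, hw, rfl⟩ := Finset.mem_image.mp (hRsub hxR)
    exact Finset.mem_image.mpr ⟨_, Finset.mem_image.mpr ⟨w, hw, rfl⟩, rfl⟩
  have hFpow : (0 : ℝ) ≤ ((F : ℝ) / 2) ^ ρ := by positivity
  unfold wt
  calc ((X.card : ℝ) / 2) * ((F : ℝ) / 2) ^ ρ
      ≤ (Good.card : ℝ) * ((F : ℝ) / 2) ^ ρ := by
        apply mul_le_mul_of_nonneg_right _ hFpow
        have : (X.card : ℝ) ≤ 2 * (Good.card : ℝ) := by exact_mod_cast hGoodCard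
        linarith
    _ = ∑ _x ∈ Good, ((F : ℝ) / 2) ^ ρ := by simp
    _ ≤ ∑ x ∈ Good, ((fib (hashedP T ℓ e g) (y x) : ℕ) : ℝ) ^ ρ :=
        Finset.sum_le_sum fun x hx => Real.rpow_le_rpow (by positivity) (hfib x hx) hρ.le
    _ = ∑ n ∈ Good.image y, ((fib (hashedP T ℓ e g) n : ℕ) : ℝ) ^ ρ :=
        (Finset.sum_image (f := fun n => ((fib (hashedP T ℓ e g) n : ℕ) : ℝ) ^ ρ) hyinj).symm
    _ ≤ _ := Finset.sum_le_sum_of_subset_of_nonneg hsubX (fun _ _ _ => by positivity)

end oneshot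

end Vale.Agent.Lib.P141
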