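import Mathlib

open Finset
open scoped Nat

namespace Vale.Agent.Lib.P141

section orbit
variable {I : Type} [Fintype I] [DecidableEq I] {ι : Type} [DecidableEq ι]

/-- The set of all rearrangements of a word. -/
noncomputable def orb (f : I → ι) : Finset (I → ι) :=
  (univ : Finset (Equiv.Perm I)).image (fun σ : Equiv.Perm I => f ∘ (σ : I → I))

lemma mem_orb_self (f : I → ι) : f ∈ orb f :=
  Finset.mem_image.mpr ⟨(1 : Equiv.Perm I), Finset.mem_univ _, rfl⟩

lemma card_orb_mul (f : I → ι) :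
    (orb f).card * ∏ v ∈ univ.image f, (Fintype.card {a // f a = v})! = (Fintype.card I)! := by
  classical
  have h0 : ∏ v ∈ univ.image f, (Fintype.card {a // f a = v})! =
      Fintype.card {g : Equiv.Perm I // f ∘ g = f} := (DomMulAct.stabilizer_card' f).symm
  rw [h0, ← Fintype.card_perm]
  have h1 : Fintype.card (Equiv.Perm I) =
      ∑ w ∈ orb f, (univ.filter (fun σ : Equiv.Perm I => f ∘ (σ : I → I) = w)).card := by
    rw [← Finset.card_univ]
    exact Finset.card_eq_sum_card_image _ _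
  have h : ∀ w ∈ orb f, (univ.filter (fun σ : Equiv.Perm I => f ∘ σ = w)).card =
      Fintype.card {g : Equiv.Perm I // f ∘ g = f} := by
    intro w hw
    obtain ⟨τ, _, rfl⟩ := Finset.mem_image.mp hw
    rw [Fintype.card_subtype]
    apply Finset.card_bij (fun σ _ => σ * τ⁻¹)
    · intro σ hσ
      have h1 := (Finset.mem_filter.mp hσ).2
      refine Finset.mem_filter.mpr ⟨Finset.mem_univ _, ?_⟩
      funext a
      have := congrFun h1 (τ⁻¹ a)
      simp only [Function.comp] at this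
      have e2 : τ (τ⁻¹ a) = a := by simp
      rw [e2] at this
      simp only [Function.comp, Equiv.Perm.mul_apply]
      exact this
    · intro a _ b _ hab
      exact mul_right_cancel hab
    · intro ρ hρ
      have h1 := (Finset.mem_filter.mp hρ).2
      refine ⟨ρ * τ, Finset.mem_filter.mpr ⟨Finset.mem_univ _, ?_⟩, by simp⟩
      funext a
      have := congrFun h1 (τ a)
      simp only [Function.comp, Equiv.Perm.mul_apply] at this ⊢
      exact this
  rw [h1, Finset.sum_congr rfl h]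
  simp

lemma orb_image (f : I → ι) {κ : Type} [DecidableEq κ] (π : ι → κ) :
    (orb f).image (fun w => π ∘ w) = orb (π ∘ f) := by
  classical
  unfold orb
  rw [Finset.image_image]
  rfl

end orbit

section stirling

lemma factorial_lower (n : ℕ) : ((n : ℝ) / Real.exp 1) ^ n ≤ (n ! : ℝ) := by
  have h := Real.pow_div_factorial_le_exp (x := (n : ℝ)) (by positivity) n
  have hpos : (0 : ℝ) < (n ! : ℝ) := by exact_mod_cast Nat.factorial_pos n
  rw [div_le_iff₀ hpos] at h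
  rw [div_pow, div_le_iff₀ (by positivity)]
  have e1 : Real.exp 1 ^ n = Real.exp n := by
    rw [← Real.exp_nat_mul, mul_one]
  rw [e1, mul_comm]
  exact h

lemma factorial_upper {n : ℕ} (hn : 1 ≤ n) :
    (n ! : ℝ) ≤ Real.exp 1 * n * ((n : ℝ) / Real.exp 1) ^ n := by
  induction n, hn using Nat.le_induction with
  | base =>
    have he : Real.exp 1 ≠ 0 := (Real.exp_pos 1).ne'
    have e : Real.exp 1 * ((1 : ℕ) : ℝ) * (((1 : ℕ) : ℝ) / Real.exp 1) ^ 1 = 1 := by
      push_cast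
      field_simp
    rw [e]
    simp
  | succ n hn ih =>
    have hn0 : (0 : ℝ) < n := by exact_mod_cast hn
    have hfact : ((n + 1)! : ℝ) = (n + 1) * (n ! : ℝ) := by
      rw [Nat.factorial_succ]; push_cast; ring
    rw [hfact]
    push_cast
    have hkey : Real.exp 1 * (n : ℝ) ^ (n + 1) ≤ ((n : ℝ) + 1) ^ (n + 1) := by
      -- `e ≤ (1 + 1/n)^(n+1)`
      have hu : Real.exp (1 / ((n : ℝ) + 1)) ≤ ((n : ℝ) + 1) / n := by
        have h1 := Real.add_one_le_exp (-(1 / ((n : ℝ) + 1)))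
        have h2 : -(1 / ((n : ℝ) + 1)) + 1 = (n : ℝ) / (n + 1) := by field_simp; ring
        rw [h2] at h1
        have h3 : Real.exp (1 / ((n : ℝ) + 1)) = (Real.exp (-(1 / ((n : ℝ) + 1))))⁻¹ := by
          rw [Real.exp_neg, inv_inv]
        rw [h3]
        have hpos : (0 : ℝ) < (n : ℝ) / (n + 1) := by positivity
        calc (Real.exp (-(1 / ((n : ℝ) + 1))))⁻¹ ≤ ((n : ℝ) / (n + 1))⁻¹ :=
              inv_anti₀ hpos h1
          _ = _ := by rw [inv_div]
      have h4 : Real.exp 1 = Real.exp (1 / ((n : ℝ) + 1)) ^ (n + 1) := by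
        rw [← Real.exp_nat_mul]
        congr 1
        push_cast
        field_simp
      rw [h4]
      have h5 : (Real.exp (1 / ((n : ℝ) + 1))) ^ (n + 1) ≤ (((n : ℝ) + 1) / n) ^ (n + 1) :=
        pow_le_pow_left₀ (by positivity) hu _
      calc _ ≤ (((n : ℝ) + 1) / n) ^ (n + 1) * (n : ℝ) ^ (n + 1) :=
            mul_le_mul_of_nonneg_right h5 (by positivity)
        _ = _ := by rw [← mul_pow]; congr 1; field_simp
    have he : (0 : ℝ) < Real.exp 1 := Real.exp_pos 1
    have h6 : (n : ℝ) * ((n : ℝ) / Real.exp 1) ^ n ≤ (((n : ℝ) + 1) / Real.exp 1) ^ (n + 1) := by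
      rw [div_pow, div_pow, mul_div_assoc', div_le_div_iff₀ (by positivity) (by positivity)]
      calc (n : ℝ) * (n : ℝ) ^ n * Real.exp 1 ^ (n + 1)
          = (Real.exp 1 * (n : ℝ) ^ (n + 1)) * Real.exp 1 ^ n := by ring
        _ ≤ ((n : ℝ) + 1) ^ (n + 1) * Real.exp 1 ^ n :=
            mul_le_mul_of_nonneg_right hkey (by positivity)
    calc ((n : ℝ) + 1) * (n ! : ℝ)
        ≤ ((n : ℝ) + 1) * (Real.exp 1 * n * ((n : ℝ) / Real.exp 1) ^ n) :=
          mul_le_mul_of_nonneg_left ih (by positivity)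
      _ = Real.exp 1 * ((n : ℝ) + 1) * ((n : ℝ) * ((n : ℝ) / Real.exp 1) ^ n) := by ring
      _ ≤ _ := mul_le_mul_of_nonneg_left h6 (by positivity)

end stirling

section weights

variable (Ω : Finset (ℤ × ℤ)) (m : ℤ × ℤ → ℕ)

/-- Total weight of the fibre of `π` above `v`. -/
def wgt {ι : Type} [DecidableEq ι] (π : ℤ × ℤ → ι) (v : ι) : ℕ :=
  ∑ z ∈ Ω.filter (fun z => π z = v), m z

/-- Total weight. -/
def totW : ℕ := ∑ z ∈ Ω, m z

/-- The exponential of `M` times the entropy of `π` under the distribution `m / M`. -/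
noncomputable def expEnt {ι : Type} [DecidableEq ι] (π : ℤ × ℤ → ι) : ℝ :=
  ((totW Ω m : ℕ) : ℝ) ^ (totW Ω m) /
    ∏ v ∈ Ω.image π, ((wgt Ω m π v : ℕ) : ℝ) ^ (wgt Ω m π v)

/-- The index set of the base word. -/
abbrev Idx (k : ℕ) : Type := Σ z : {z // z ∈ Ω}, Fin (k * m z.1)

/-- The base word. -/
def baseW (k : ℕ) : Idx Ω m k → ℤ × ℤ := fun a => a.1.1

variable {Ω m}

lemma card_Idx (k : ℕ) : Fintype.card (Idx Ω m k) = k * totW Ω m := by
  rw [Fintype.card_sigma]
  simp only [Fintype.card_fin]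
  rw [← Finset.mul_sum, totW]
  congr 1
  exact Finset.sum_coe_sort Ω (fun z => m z)

lemma sum_wgt {ι : Type} [DecidableEq ι] (π : ℤ × ℤ → ι) :
    ∑ v ∈ Ω.image π, wgt Ω m π v = totW Ω m := by
  unfold wgt totW
  exact Finset.sum_fiberwise_of_maps_to (fun z hz => Finset.mem_image_of_mem π hz) _

lemma wgt_pos (hm : ∀ z ∈ Ω, 0 < m z) {ι : Type} [DecidableEq ι] {π : ℤ × ℤ → ι} {v : ι}
    (hv : v ∈ Ω.image π) : 0 < wgt Ω m π v := by
  obtain ⟨z, hz, rfl⟩ := Finset.mem_image.mp hv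
  unfold wgt
  exact Finset.sum_pos' (fun _ _ => Nat.zero_le _) ⟨z, Finset.mem_filter.mpr ⟨hz, rfl⟩, hm z hz⟩

lemma wgt_le {ι : Type} [DecidableEq ι] (π : ℤ × ℤ → ι) (v : ι) : wgt Ω m π v ≤ totW Ω m := by
  unfold wgt totW
  exact Finset.sum_le_sum_of_subset (Finset.filter_subset _ _)

lemma card_fiber_baseW {ι : Type} [DecidableEq ι] (k : ℕ) (π : ℤ × ℤ → ι) (v : ι) :
    Fintype.card {a : Idx Ω m k // (π ∘ baseW Ω m k) a = v} = k * wgt Ω m π v := by
  classical
  rw [Fintype.card_subtype, Finset.card_filter, Fintype.sum_sigma]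
  have h1 : ∀ z : {z // z ∈ Ω}, (∑ b : Fin (k * m z.1),
      if (π ∘ baseW Ω m k) ⟨z, b⟩ = v then 1 else 0) =
      if π z.1 = v then k * m z.1 else 0 := by
    intro z
    by_cases h : π z.1 = v
    · have h' : ∀ b ∈ (univ : Finset (Fin (k * m z.1))),
          (if (π ∘ baseW Ω m k) ⟨z, b⟩ = v then 1 else 0) = 1 := fun b _ => if_pos h
      rw [Finset.sum_congr rfl h', if_pos h]
      simp
    · have h' : ∀ b ∈ (univ : Finset (Fin (k * m z.1))),
          (if (π ∘ baseW Ω m k) ⟨z, b⟩ = v then 1 else 0) = 0 := fun b _ => if_neg h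
      rw [Finset.sum_congr rfl h', if_neg h]
      simp
  rw [Finset.sum_congr rfl (fun z _ => h1 z)]
  rw [Finset.sum_coe_sort Ω (fun z => if π z = v then k * m z else 0), ← Finset.sum_filter,
    ← Finset.mul_sum]
  rfl

lemma image_baseW {ι : Type} [DecidableEq ι] (hm : ∀ z ∈ Ω, 0 < m z) {k : ℕ} (hk : 0 < k)
    (π : ℤ × ℤ → ι) :
    (univ : Finset (Idx Ω m k)).image (π ∘ baseW Ω m k) = Ω.image π := by
  classical
  ext v
  constructor
  · intro hv
    obtain ⟨a, _, rfl⟩ := Finset.mem_image.mp hv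
    exact Finset.mem_image_of_mem π a.1.2
  · intro hv
    obtain ⟨z, hz, rfl⟩ := Finset.mem_image.mp hv
    have hpos : 0 < k * m z := Nat.mul_pos hk (hm z hz)
    exact Finset.mem_image.mpr ⟨⟨⟨z, hz⟩, ⟨0, hpos⟩⟩, Finset.mem_univ _, rfl⟩

/-- The counting identity for the rearrangements of the projected base word. -/
lemma card_orb_baseW {ι : Type} [DecidableEq ι] (hm : ∀ z ∈ Ω, 0 < m z) {k : ℕ} (hk : 0 < k)
    (π : ℤ × ℤ → ι) :
    (orb (π ∘ baseW Ω m k)).card * ∏ v ∈ Ω.image π, (k * wgt Ω m π v)! = (k * totW Ω m)! := by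
  classical
  have h := card_orb_mul (π ∘ baseW Ω m k)
  rw [image_baseW hm hk, card_Idx] at h
  rw [← h]
  congr 1
  refine Finset.prod_congr rfl fun v _ => ?_
  rw [card_fiber_baseW]

/-- Algebra of the exponential entropy. -/
lemma prod_pow_split {ι : Type} [DecidableEq ι] (π : ℤ × ℤ → ι) {k : ℕ} (c : ℝ) :
    ∏ v ∈ Ω.image π, (c * ((wgt Ω m π v : ℕ) : ℝ)) ^ (k * wgt Ω m π v) =
      c ^ (k * totW Ω m) * (∏ v ∈ Ω.image π, ((wgt Ω m π v : ℕ) : ℝ) ^ (wgt Ω m π v)) ^ k := by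
  simp_rw [mul_pow]
  rw [Finset.prod_mul_distrib, Finset.prod_pow_eq_pow_sum, ← Finset.mul_sum, sum_wgt, ← Finset.prod_pow]
  congr 1
  refine Finset.prod_congr rfl fun v _ => ?_
  rw [← pow_mul, mul_comm]

/-- The quantity `D` used to bound polynomial losses. -/
noncomputable def lossD (k M : ℕ) : ℝ := Real.exp 1 * (k : ℝ) * (M : ℝ)

lemma one_le_lossD {k M : ℕ} (hk : 1 ≤ k) (hM : 1 ≤ M) : 1 ≤ lossD k M := by
  unfold lossD
  have h1 : (1 : ℝ) ≤ k := by exact_mod_cast hk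
  have h2 : (1 : ℝ) ≤ M := by exact_mod_cast hM
  have h3 : (1 : ℝ) ≤ Real.exp 1 := by
    have := Real.add_one_le_exp (1 : ℝ)
    linarith
  calc (1 : ℝ) = 1 * 1 * 1 := by norm_num
    _ ≤ _ := by gcongr

lemma expEnt_pos (hm : ∀ z ∈ Ω, 0 < m z) (hM : 1 ≤ totW Ω m) {ι : Type} [DecidableEq ι]
    (π : ℤ × ℤ → ι) : 0 < expEnt Ω m π := by
  unfold expEnt
  have hM' : (0 : ℝ) < (totW Ω m : ℕ) := by exact_mod_cast hM
  apply div_pos (pow_pos hM' _)
  apply Finset.prod_pos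
  intro v hv
  have : (0 : ℝ) < (wgt Ω m π v : ℕ) := by exact_mod_cast wgt_pos hm hv
  exact pow_pos this _

/-- Upper bound for the number of rearrangements. -/
lemma card_orb_le {ι : Type} [DecidableEq ι] (hm : ∀ z ∈ Ω, 0 < m z) (hM : 1 ≤ totW Ω m) {k : ℕ}
    (hk : 1 ≤ k) (π : ℤ × ℤ → ι) :
    ((orb (π ∘ baseW Ω m k)).card : ℝ) ≤ lossD k (totW Ω m) * expEnt Ω m π ^ k := by
  set M := totW Ω m with hMdef
  set W := ∏ v ∈ Ω.image π, ((wgt Ω m π v : ℕ) : ℝ) ^ (wgt Ω m π v) with hW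
  have hk' : (0 : ℝ) < k := by exact_mod_cast hk
  have hM' : (0 : ℝ) < M := by exact_mod_cast hM
  have he : (0 : ℝ) < Real.exp 1 := Real.exp_pos 1
  have hWpos : 0 < W := by
    apply Finset.prod_pos
    intro v hv
    have : (0 : ℝ) < (wgt Ω m π v : ℕ) := by exact_mod_cast wgt_pos hm hv
    exact pow_pos this _
  have hid := card_orb_baseW hm hk π
  have hid' : ((orb (π ∘ baseW Ω m k)).card : ℝ) *
      ∏ v ∈ Ω.image π, (((k * wgt Ω m π v)! : ℕ) : ℝ) = (((k * M)! : ℕ) : ℝ) := by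
    exact_mod_cast hid
  have hprod : ((k : ℝ) / Real.exp 1) ^ (k * M) * W ^ k ≤
      ∏ v ∈ Ω.image π, (((k * wgt Ω m π v)! : ℕ) : ℝ) := by
    rw [hW, hMdef, ← prod_pow_split π]
    apply Finset.prod_le_prod
    · intro v _
      positivity
    · intro v _
      have := factorial_lower (k * wgt Ω m π v)
      calc _ = (((k * wgt Ω m π v : ℕ) : ℝ) / Real.exp 1) ^ (k * wgt Ω m π v) := by
            congr 1
            push_cast
            ring
        _ ≤ _ := this
  have hup := factorial_upper (n := k * M) (Nat.mul_pos hk hM)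
  have hupper : (((k * M)! : ℕ) : ℝ) ≤ lossD k M * (((k : ℝ) / Real.exp 1) ^ (k * M) *
      (M : ℝ) ^ (k * M)) := by
    refine le_trans hup (le_of_eq ?_)
    unfold lossD
    push_cast
    rw [mul_assoc (Real.exp 1) (k : ℝ) (M : ℝ), ← mul_pow]
    congr 2
    ring
  have hEk : expEnt Ω m π ^ k = (M : ℝ) ^ (k * M) / W ^ k := by
    unfold expEnt
    rw [div_pow, ← pow_mul, mul_comm M k]
  have hpos1 : 0 < ((k : ℝ) / Real.exp 1) ^ (k * M) * W ^ k := by positivity
  have hN := le_of_eq hid'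
  have hcalc : ((orb (π ∘ baseW Ω m k)).card : ℝ) * (((k : ℝ) / Real.exp 1) ^ (k * M) * W ^ k) ≤
      lossD k M * expEnt Ω m π ^ k * (((k : ℝ) / Real.exp 1) ^ (k * M) * W ^ k) := by
    calc _ ≤ ((orb (π ∘ baseW Ω m k)).card : ℝ) * ∏ v ∈ Ω.image π, (((k * wgt Ω m π v)! : ℕ) : ℝ) :=
          mul_le_mul_of_nonneg_left hprod (by positivity)
      _ = _ := hid'
      _ ≤ _ := hupper
      _ = _ := by
          rw [hEk]
          field_simp
  exact le_of_mul_le_mul_right hcalc hpos1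

/-- Lower bound for the number of rearrangements. -/
lemma le_card_orb {ι : Type} [DecidableEq ι] (hm : ∀ z ∈ Ω, 0 < m z) (hM : 1 ≤ totW Ω m) {k : ℕ}
    (hk : 1 ≤ k) (π : ℤ × ℤ → ι) :
    expEnt Ω m π ^ k ≤ ((orb (π ∘ baseW Ω m k)).card : ℝ) * lossD k (totW Ω m) ^ Ω.card := by
  set M := totW Ω m with hMdef
  set W := ∏ v ∈ Ω.image π, ((wgt Ω m π v : ℕ) : ℝ) ^ (wgt Ω m π v) with hW
  have hk' : (0 : ℝ) < k := by exact_mod_cast hk
  have hM' : (0 : ℝ) < M := by exact_mod_cast hM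
  have he : (0 : ℝ) < Real.exp 1 := Real.exp_pos 1
  have hD1 := one_le_lossD hk hM
  have hWpos : 0 < W := by
    apply Finset.prod_pos
    intro v hv
    have : (0 : ℝ) < (wgt Ω m π v : ℕ) := by exact_mod_cast wgt_pos hm hv
    exact pow_pos this _
  have hid := card_orb_baseW hm hk π
  have hid' : ((orb (π ∘ baseW Ω m k)).card : ℝ) *
      ∏ v ∈ Ω.image π, (((k * wgt Ω m π v)! : ℕ) : ℝ) = (((k * M)! : ℕ) : ℝ) := by
    exact_mod_cast hid
  have hprod : ∏ v ∈ Ω.image π, (((k * wgt Ω m π v)! : ℕ) : ℝ) ≤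
      lossD k M ^ Ω.card * (((k : ℝ) / Real.exp 1) ^ (k * M) * W ^ k) := by
    rw [hW, hMdef, ← prod_pow_split π]
    have h1 : ∀ v ∈ Ω.image π, (((k * wgt Ω m π v)! : ℕ) : ℝ) ≤ lossD k (totW Ω m) *
        ((k : ℝ) / Real.exp 1 * ((wgt Ω m π v : ℕ) : ℝ)) ^ (k * wgt Ω m π v) := by
      intro v hv
      have hwpos := wgt_pos hm hv
      have h2 := factorial_upper (n := k * wgt Ω m π v) (Nat.mul_pos hk hwpos)
      refine le_trans h2 ?_
      have e1 : (((k * wgt Ω m π v : ℕ) : ℝ) / Real.exp 1) =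
          (k : ℝ) / Real.exp 1 * ((wgt Ω m π v : ℕ) : ℝ) := by
        push_cast
        ring
      rw [e1]
      apply mul_le_mul_of_nonneg_right _ (by positivity)
      unfold lossD
      push_cast
      have h3 : ((wgt Ω m π v : ℕ) : ℝ) ≤ (totW Ω m : ℕ) := by exact_mod_cast wgt_le π v
      rw [mul_assoc]
      apply mul_le_mul_of_nonneg_left _ he.le
      apply mul_le_mul_of_nonneg_left h3 hk'.le
    calc _ ≤ ∏ v ∈ Ω.image π, (lossD k (totW Ω m) *
          ((k : ℝ) / Real.exp 1 * ((wgt Ω m π v : ℕ) : ℝ)) ^ (k * wgt Ω m π v)) :=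
          Finset.prod_le_prod (fun _ _ => by positivity) h1
      _ = lossD k (totW Ω m) ^ (Ω.image π).card * ∏ v ∈ Ω.image π,
          ((k : ℝ) / Real.exp 1 * ((wgt Ω m π v : ℕ) : ℝ)) ^ (k * wgt Ω m π v) := by
          rw [Finset.prod_mul_distrib, Finset.prod_const]
      _ ≤ _ := by
          apply mul_le_mul_of_nonneg_right _ (Finset.prod_nonneg fun _ _ => by positivity)
          exact pow_le_pow_right₀ hD1 Finset.card_image_le
  have hlow := factorial_lower (k * M)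
  have hlower : ((k : ℝ) / Real.exp 1) ^ (k * M) * (M : ℝ) ^ (k * M) ≤ (((k * M)! : ℕ) : ℝ) := by
    refine le_trans (le_of_eq ?_) hlow
    rw [← mul_pow]
    congr 1
    push_cast
    ring
  have hEk : expEnt Ω m π ^ k = (M : ℝ) ^ (k * M) / W ^ k := by
    unfold expEnt
    rw [div_pow, ← pow_mul, mul_comm M k]
  have hpos1 : 0 < ((k : ℝ) / Real.exp 1) ^ (k * M) * W ^ k := by positivity
  have hcalc : expEnt Ω m π ^ k * (((k : ℝ) / Real.exp 1) ^ (k * M) * W ^ k) ≤
      ((orb (π ∘ baseW Ω m k)).card : ℝ) * lossD k M ^ Ω.card *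
        (((k : ℝ) / Real.exp 1) ^ (k * M) * W ^ k) := by
    calc _ = ((k : ℝ) / Real.exp 1) ^ (k * M) * (M : ℝ) ^ (k * M) := by
          rw [hEk]
          field_simp
      _ ≤ _ := hlower
      _ = _ := hid'.symm
      _ ≤ ((orb (π ∘ baseW Ω m k)).card : ℝ) *
          (lossD k M ^ Ω.card * (((k : ℝ) / Real.exp 1) ^ (k * M) * W ^ k)) :=
          mul_le_mul_of_nonneg_left hprod (by positivity)
      _ = _ := by ring
  exact le_of_mul_le_mul_right hcalc hpos1

end weights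

end Vale.Agent.Lib.P141
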