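import Mathlib
import Vale.Agent.Lib.P141.OneShot
import Vale.Agent.Lib.P141.Typed
import Vale.Agent.Lib.P141.Master

open Finset

namespace Vale.Agent.Lib.P141

section uniform
variable {I : Type} [Fintype I] [DecidableEq I]

lemma fxW_comp (w : I → ℤ × ℤ) (σ : I → I) : fxW (w ∘ σ) = fxW w ∘ σ := rfl

lemma comp_mem_orb {f : I → ℤ × ℤ} {w : I → ℤ × ℤ} (hw : w ∈ orb f) (σ : Equiv.Perm I) :
    w ∘ σ ∈ orb f := by
  obtain ⟨τ, _, rfl⟩ := Finset.mem_image.mp hw
  exact Finset.mem_image.mpr ⟨τ * σ, Finset.mem_univ _, rfl⟩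

/-- All fibres of `fxW` over a rearrangement class have the same size. -/
lemma card_fibW_eq (f : I → ℤ × ℤ) {x : I → ℤ} (hx : x ∈ (orb f).image fxW) :
    (fibW (orb f) x).card = (fibW (orb f) (fxW f)).card := by
  classical
  obtain ⟨w, hw, rfl⟩ := Finset.mem_image.mp hx
  obtain ⟨σ, _, rfl⟩ := Finset.mem_image.mp hw
  apply Finset.card_bij (fun u _ => u ∘ (σ⁻¹ : Equiv.Perm I))
  · intro u hu
    obtain ⟨h1, h2⟩ := Finset.mem_filter.mp hu
    refine Finset.mem_filter.mpr ⟨comp_mem_orb h1 _, ?_⟩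
    rw [fxW_comp, h2, fxW_comp, Function.comp_assoc]
    have : ((σ : I → I) ∘ (σ⁻¹ : Equiv.Perm I)) = id := by
      funext a
      simp
    rw [this, Function.comp_id]
  · intro a _ b _ hab
    funext i
    have := congrFun hab (σ i)
    simpa using this
  · intro u hu
    obtain ⟨h1, h2⟩ := Finset.mem_filter.mp hu
    refine ⟨u ∘ σ, Finset.mem_filter.mpr ⟨comp_mem_orb h1 _, ?_⟩, ?_⟩
    · rw [fxW_comp, h2]
      rfl
    · funext i
      simp

lemma card_orb_eq_mul (f : I → ℤ × ℤ) :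
    (orb f).card = ((orb f).image fxW).card * (fibW (orb f) (fxW f)).card := by
  classical
  have h := Finset.card_eq_sum_card_image fxW (orb f)
  rw [h, Finset.sum_congr rfl (fun x hx => by
    have := card_fibW_eq f hx
    unfold fibW at this
    exact this)]
  simp [fibW]

lemma image_fxW_orb (f : I → ℤ × ℤ) : (orb f).image fxW = orb (Prod.fst ∘ f) := by
  classical
  have := orb_image f (Prod.fst : ℤ × ℤ → ℤ)
  rw [← this]
  rfl

lemma image_faW_orb (f : I → ℤ × ℤ) (j : ℕ) : (orb f).image (faW j) = orb (form (j : ℤ) ∘ f) := by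
  classical
  have := orb_image f (form (j : ℤ))
  rw [← this]
  rfl

end uniform

end Vale.Agent.Lib.P141
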