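import Mathlib
import Vale.Agent.Lib.P141.Uniform

open Finset MeasureTheory Filter Topology
open scoped ENNReal SchwartzMap

namespace Vale.Agent.Lib.P141

section
variable {Ω : Finset (ℤ × ℤ)} {m : ℤ × ℤ → ℕ}

lemma one_le_expEnt (hm : ∀ z ∈ Ω, 0 < m z) (hM : 1 ≤ totW Ω m) {ι : Type} [DecidableEq ι]
    (π : ℤ × ℤ → ι) : 1 ≤ expEnt Ω m π := by
  unfold expEnt
  have hM' : (0 : ℝ) < (totW Ω m : ℕ) := by exact_mod_cast hM
  have hWpos : 0 < ∏ v ∈ Ω.image π, ((wgt Ω m π v : ℕ) : ℝ) ^ (wgt Ω m π v) := by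
    apply Finset.prod_pos
    intro v hv
    have : (0 : ℝ) < (wgt Ω m π v : ℕ) := by exact_mod_cast wgt_pos hm hv
    exact pow_pos this _
  rw [one_le_div hWpos]
  calc ∏ v ∈ Ω.image π, ((wgt Ω m π v : ℕ) : ℝ) ^ (wgt Ω m π v)
      ≤ ∏ v ∈ Ω.image π, ((totW Ω m : ℕ) : ℝ) ^ (wgt Ω m π v) := by
        apply Finset.prod_le_prod
        · intro v _
          positivity
        · intro v _
          apply pow_le_pow_left₀ (by positivity)
          exact_mod_cast wgt_le π v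
    _ = _ := by
        rw [Finset.prod_pow_eq_pow_sum, sum_wgt]

end

section hashed
variable {I : Type} [Fintype I] [DecidableEq I]

/-- The hashed configuration attached to a word. -/
lemma exists_hashed_config [Nonempty I] (f : I → ℤ × ℤ) {M₀ : ℤ} (hM₀0 : 0 ≤ M₀)
    (hbd : ∀ i, |(f i).1| ≤ M₀ ∧ |(f i).2| ≤ M₀) {ρ : ℝ} (hρ : 0 < ρ) :
    ∃ (P : Finset (ℤ × ℤ)) (ℓ : ℕ), (∀ z ∈ P, |z.1| ≤ (ℓ : ℤ) ∧ |z.2| ≤ (ℓ : ℤ)) ∧
      (((orb f).image fxW).card / 2 : ℝ) * (((fibW (orb f) (fxW f)).card : ℝ) / 2) ^ ρ ≤ wt ρ P ∧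
      (∀ j : ℕ, (P.image (form (j : ℤ))).card ≤ ((orb f).image (faW j)).card * (j + 1)) ∧
      (ℓ : ℝ) ≤ 2 * (2 * (Fintype.card I : ℝ) *
        ((((orb f).image fxW).card : ℝ) + 2 * ((fibW (orb f) (fxW f)).card : ℝ)) +
        2 * (M₀ : ℝ) + 1) := by
  classical
  set T := orb f with hT
  set X := T.image fxW with hX
  set F := (fibW T (fxW f)).card with hFdef
  have hF : ∀ x ∈ X, (fibW T x).card = F := fun x hx => card_fibW_eq f hx
  have hfT : f ∈ T := mem_orb_self f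
  have hX0 : 0 < X.card := Finset.card_pos.mpr ⟨fxW f, Finset.mem_image_of_mem _ hfT⟩
  have hF0 : 0 < F := Finset.card_pos.mpr ⟨f, Finset.mem_filter.mpr ⟨hfT, rfl⟩⟩
  have hbdT : ∀ w ∈ T, ∀ i, |(w i).1| ≤ M₀ ∧ |(w i).2| ≤ M₀ := by
    intro w hw i
    obtain ⟨σ, _, rfl⟩ := Finset.mem_image.mp hw
    exact hbd _
  set d := Fintype.card I with hd
  have hdpos : 0 < d := Fintype.card_pos
  set N := 2 * d * (X.card + 2 * F) + 2 * M₀.toNat + 1 with hN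
  obtain ⟨ℓ, hℓprime, hℓ1, hℓ2⟩ := Nat.exists_prime_lt_and_le_two_mul N (by omega)
  have : Fact ℓ.Prime := ⟨hℓprime⟩
  set e : I ≃ Fin (Fintype.card I) := Fintype.equivFin _ with he
  have hM₀nat : ((M₀.toNat : ℕ) : ℤ) = M₀ := Int.toNat_of_nonneg hM₀0
  have hℓA : 2 * M₀ < ℓ := by
    have h1 : 2 * M₀.toNat < ℓ := by omega
    have h2 : ((2 * M₀.toNat : ℕ) : ℤ) < ℓ := by exact_mod_cast h1
    push_cast at h2
    rw [hM₀nat] at h2
    exact h2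
  have hℓB : 2 * d * (X.card + 2 * F) ≤ ℓ := by omega
  have hposB : 0 < d * (X.card + 2 * F) := Nat.mul_pos hdpos (by omega)
  obtain ⟨g, hg⟩ := exists_good_g (T := T) (ℓ := ℓ) (e := e) hbdT hℓA hF hℓB hposB
  refine ⟨hashedP T ℓ e g, ℓ, hashedP_bound g, wt_hashedP_ge hF0 hF hg hρ,
    fun j => card_image_form_hashedP_le g j, ?_⟩
  have hM₀toNat : ((M₀.toNat : ℕ) : ℝ) = (M₀ : ℝ) := by
    have h : (((M₀.toNat : ℕ) : ℤ) : ℝ) = (M₀ : ℝ) := by rw [hM₀nat]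
    rwa [Int.cast_natCast] at h
  have h1 : (ℓ : ℝ) ≤ 2 * (N : ℝ) := by exact_mod_cast hℓ2
  have h2 : (N : ℝ) = 2 * (d : ℝ) * ((X.card : ℝ) + 2 * (F : ℝ)) + 2 * (M₀ : ℝ) + 1 := by
    rw [hN]
    push_cast
    rw [hM₀toNat]
  rw [h2] at h1
  exact h1

end hashed

section reals

/-- The purely real final step of the level inequality. -/
lemma level_real {H A D1 β a G b D2 C Q π : ℝ} (hH : 0 < H) (hA : 0 < A) (hD1 : 0 < D1)
    (hβ : 0 < β) (hG : 0 < G) (hD2 : 0 < D2) (hπ : 0 < π)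
    (h : (1 / H) * (1 / (16 * (A * D1 * β))) * (a / G) * ((b / D2) / 2) ≤ C * (Q * π)) :
    a * b / (β * π) ≤ C * Q * H * 16 * A * D1 * G * D2 * 2 := by
  have e : (1 / H) * (1 / (16 * (A * D1 * β))) * (a / G) * ((b / D2) / 2) =
      a * b / (H * 16 * A * D1 * β * G * D2 * 2) := by
    field_simp
  rw [e, div_le_iff₀ (by positivity)] at h
  rw [div_le_iff₀ (by positivity)]
  calc a * b ≤ _ := h
    _ = _ := by ring

/-- The bound for the prime, from the bounds for `X` and `F`. -/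
lemma prime_bound {ℓ d Xc Fc D B M₀ : ℝ} {c k : ℕ} (hd : d ≤ D) (hd0 : 0 ≤ d) (hD1 : 1 ≤ D)
    (hB : 1 ≤ B) (hX0 : 0 ≤ Xc) (hF0 : 0 ≤ Fc) (hM₀ : 0 ≤ M₀)
    (hX : Xc ≤ D * B ^ k) (hF : Fc ≤ D ^ (c + 1) * B ^ k)
    (hℓ : ℓ ≤ 2 * (2 * d * (Xc + 2 * Fc) + 2 * M₀ + 1)) :
    10 * ℓ + 3 ≤ (143 + 40 * M₀) * (D ^ (c + 2) * B ^ k) := by
  have hBk : 1 ≤ B ^ k := one_le_pow₀ hB
  have hDpos : 0 < D := by linarith
  have hDpow : D ≤ D ^ (c + 1) := le_self_pow₀ hD1 (by omega)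
  have hDpow2 : D ^ (c + 2) = D * D ^ (c + 1) := by ring
  have hone : 1 ≤ D ^ (c + 2) * B ^ k := by
    have h1 : 1 ≤ D ^ (c + 2) := one_le_pow₀ hD1
    nlinarith
  have h3 : Xc + 2 * Fc ≤ 3 * (D ^ (c + 1) * B ^ k) := by
    have h4 : D * B ^ k ≤ D ^ (c + 1) * B ^ k := by gcongr
    linarith
  have h5 : d * (Xc + 2 * Fc) ≤ D * (3 * (D ^ (c + 1) * B ^ k)) :=
    mul_le_mul hd h3 (by positivity) (by positivity)
  have h6 : D * (3 * (D ^ (c + 1) * B ^ k)) = 3 * (D ^ (c + 2) * B ^ k) := by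
    rw [hDpow2]; ring
  have h7 : M₀ ≤ M₀ * (D ^ (c + 2) * B ^ k) := by nlinarith
  nlinarith

/-- The real assembly. -/
lemma level_assemble {C S s₁ s₂ s₃ ρ D Ex Ez Pz B A Xc Fc Lc Wt Y1 Y2 Y3 E1 E2 E3 : ℝ} {c k : ℕ}
    (hρ : 0 < ρ) (hSdef : S = 1 / ρ) (hsum : s₁ + s₂ + s₃ = S)
    (hs₁ : 0 ≤ s₁) (hs₂ : 0 ≤ s₂) (hs₃ : 0 ≤ s₃)
    (hC : 0 ≤ C) (hD1 : 1 ≤ D) (hEx : 0 < Ex) (hEz : 0 < Ez) (hB : 0 < B) (hA : 0 < A)
    (hE1 : 0 < E1) (hE2 : 0 < E2) (hE3 : 0 < E3) (hPz : Pz = E1 ^ s₁ * E2 ^ s₂ * E3 ^ s₃)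
    (hXc : 0 < Xc) (hFc : 0 < Fc) (hLc : 0 < Lc) (hWt : 0 ≤ Wt)
    (hY1 : 0 ≤ Y1) (hY2 : 0 ≤ Y2) (hY3 : 0 ≤ Y3)
    (hconf : (1 / 16) ^ (1 / ρ) * (1 / (16 * Lc)) * Wt ^ (1 / ρ) ≤
      C * (Y1 ^ s₁ * Y2 ^ s₂ * Y3 ^ s₃))
    (hwt : (Xc / 2) * (Fc / 2) ^ ρ ≤ Wt)
    (hXge : Ex ^ k ≤ Xc * D ^ c)
    (hFge : (Ez / Ex) ^ k / D ^ (c + 1) ≤ Fc)
    (hLcle : Lc ≤ A * (D ^ (c + 2) * B ^ k))
    (hY1le : Y1 ≤ (4 * D) * E1 ^ k) (hY2le : Y2 ≤ (4 * D) * E2 ^ k) (hY3le : Y3 ≤ (4 * D) * E3 ^ k) :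
    (Ex ^ S * (Ez / Ex) / (B * Pz)) ^ k ≤
      C * (4 * D) ^ S * (16 : ℝ) ^ S * 16 * A * D ^ (c + 2) * (2 * D ^ c) ^ S * D ^ (c + 1) * 2 := by
  have hDpos : 0 < D := by linarith
  have hS0 : 0 < S := by rw [hSdef]; positivity
  have hYpow : ∀ {Y E s : ℝ}, 0 ≤ Y → 0 < E → 0 ≤ s → Y ≤ (4 * D) * E ^ k →
      Y ^ s ≤ (4 * D) ^ s * (E ^ s) ^ k := by
    intro Y E s hY0 hE hs hY
    calc Y ^ s ≤ ((4 * D) * E ^ k) ^ s := Real.rpow_le_rpow hY0 hY hs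
      _ = _ := by
        rw [Real.mul_rpow (by positivity) (by positivity), rpow_pow_comm hE.le]
  have hR1 := hYpow hY1 hE1 hs₁ hY1le
  have hR2 := hYpow hY2 hE2 hs₂ hY2le
  have hR3 := hYpow hY3 hE3 hs₃ hY3le
  have hSsplit : (4 * D) ^ S = (4 * D) ^ s₁ * (4 * D) ^ s₂ * (4 * D) ^ s₃ := by
    rw [← hsum, Real.rpow_add (by positivity), Real.rpow_add (by positivity)]
  have hPzpos : 0 < Pz := by rw [hPz]; positivity
  have hPk : (E1 ^ s₁) ^ k * (E2 ^ s₂) ^ k * (E3 ^ s₃) ^ k = Pz ^ k := by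
    rw [hPz, mul_pow, mul_pow]
  have hRHS : Y1 ^ s₁ * Y2 ^ s₂ * Y3 ^ s₃ ≤ (4 * D) ^ S * Pz ^ k := by
    calc _ ≤ ((4 * D) ^ s₁ * (E1 ^ s₁) ^ k) * ((4 * D) ^ s₂ * (E2 ^ s₂) ^ k) *
          ((4 * D) ^ s₃ * (E3 ^ s₃) ^ k) := by gcongr
      _ = ((4 * D) ^ s₁ * (4 * D) ^ s₂ * (4 * D) ^ s₃) *
          ((E1 ^ s₁) ^ k * (E2 ^ s₂) ^ k * (E3 ^ s₃) ^ k) := by ring
      _ = _ := by rw [← hSsplit, hPk]
  have hwtS : ((Ex ^ S) ^ k / (2 * D ^ c) ^ S) * (((Ez / Ex) ^ k / D ^ (c + 1)) / 2) ≤ Wt ^ S := by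
    have h1 : ((Xc / 2) * (Fc / 2) ^ ρ) ^ S ≤ Wt ^ S :=
      Real.rpow_le_rpow (by positivity) hwt hS0.le
    have h2 : ((Xc / 2) * (Fc / 2) ^ ρ) ^ S = (Xc / 2) ^ S * (Fc / 2) := by
      rw [Real.mul_rpow (by positivity) (by positivity), ← Real.rpow_mul (by positivity), hSdef,
        mul_one_div_cancel hρ.ne', Real.rpow_one]
    rw [h2] at h1
    refine le_trans ?_ h1
    have h3 : (Ex ^ S) ^ k / (2 * D ^ c) ^ S ≤ (Xc / 2) ^ S := by
      rw [← rpow_pow_comm hEx.le, ← Real.div_rpow (by positivity) (by positivity)]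
      apply Real.rpow_le_rpow (by positivity) _ hS0.le
      rw [div_le_div_iff₀ (by positivity) (by norm_num)]
      nlinarith
    have h4 : ((Ez / Ex) ^ k / D ^ (c + 1)) / 2 ≤ Fc / 2 := by linarith
    have h5 : 0 ≤ ((Ez / Ex) ^ k / D ^ (c + 1)) / 2 := by positivity
    exact mul_le_mul h3 h4 h5 (by positivity)
  have h16 : (1 / 16 : ℝ) ^ S = 1 / (16 : ℝ) ^ S := by
    rw [Real.div_rpow (by norm_num) (by norm_num), Real.one_rpow]
  have hmain : (1 / (16 : ℝ) ^ S) * (1 / (16 * (A * D ^ (c + 2) * B ^ k))) *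
      ((Ex ^ S) ^ k / (2 * D ^ c) ^ S) * (((Ez / Ex) ^ k / D ^ (c + 1)) / 2) ≤
      C * ((4 * D) ^ S * Pz ^ k) := by
    have hleft : (1 / (16 : ℝ) ^ S) * (1 / (16 * (A * D ^ (c + 2) * B ^ k))) ≤
        (1 / 16 : ℝ) ^ S * (1 / (16 * Lc)) := by
      rw [h16]
      apply mul_le_mul_of_nonneg_left _ (by positivity)
      apply one_div_le_one_div_of_le (by positivity)
      have : A * D ^ (c + 2) * B ^ k = A * (D ^ (c + 2) * B ^ k) := by ring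
      rw [this]
      linarith
    have hnonneg : 0 ≤ (1 / (16 : ℝ) ^ S) * (1 / (16 * (A * D ^ (c + 2) * B ^ k))) := by positivity
    rw [← hSdef] at hconf
    calc _ = ((1 / (16 : ℝ) ^ S) * (1 / (16 * (A * D ^ (c + 2) * B ^ k)))) *
          (((Ex ^ S) ^ k / (2 * D ^ c) ^ S) * (((Ez / Ex) ^ k / D ^ (c + 1)) / 2)) := by ring
      _ ≤ ((1 / 16 : ℝ) ^ S * (1 / (16 * Lc))) * Wt ^ S :=
          mul_le_mul hleft hwtS (by positivity) (by positivity)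
      _ ≤ _ := hconf
      _ ≤ _ := mul_le_mul_of_nonneg_left hRHS hC
  have hfin := level_real (H := (16 : ℝ) ^ S) (A := A) (D1 := D ^ (c + 2))
    (β := B ^ k) (a := (Ex ^ S) ^ k) (G := (2 * D ^ c) ^ S) (b := (Ez / Ex) ^ k)
    (D2 := D ^ (c + 1)) (C := C) (Q := (4 * D) ^ S) (π := Pz ^ k)
    (by positivity) hA (by positivity) (by positivity) (by positivity) (by positivity)
    (by positivity) hmain
  have hU : (Ex ^ S * (Ez / Ex) / (B * Pz)) ^ k = (Ex ^ S) ^ k * (Ez / Ex) ^ k / (B ^ k * Pz ^ k) := by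
    rw [div_pow, mul_pow, mul_pow]
  rw [hU]
  exact hfin

end reals

section level

variable {Ω : Finset (ℤ × ℤ)} {m : ℤ × ℤ → ℕ}

/-- Bounds on the number of words and on the fibres. -/
lemma bounds_XF (hm : ∀ z ∈ Ω, 0 < m z) (hM : 1 ≤ totW Ω m) {k : ℕ} (hk : 1 ≤ k) :
    (((orb (baseW Ω m k)).image fxW).card : ℝ) ≤ lossD k (totW Ω m) * expEnt Ω m Prod.fst ^ k ∧
    expEnt Ω m Prod.fst ^ k ≤
      (((orb (baseW Ω m k)).image fxW).card : ℝ) * lossD k (totW Ω m) ^ Ω.card ∧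
    (expEnt Ω m id / expEnt Ω m Prod.fst) ^ k / lossD k (totW Ω m) ^ (Ω.card + 1) ≤
      ((fibW (orb (baseW Ω m k)) (fxW (baseW Ω m k))).card : ℝ) ∧
    ((fibW (orb (baseW Ω m k)) (fxW (baseW Ω m k))).card : ℝ) ≤
      lossD k (totW Ω m) ^ (Ω.card + 1) * (expEnt Ω m id / expEnt Ω m Prod.fst) ^ k := by
  have hXorb := image_fxW_orb (baseW Ω m k)
  have hXle : (((orb (baseW Ω m k)).image fxW).card : ℝ) ≤
      lossD k (totW Ω m) * expEnt Ω m Prod.fst ^ k := by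
    rw [hXorb]
    exact card_orb_le hm hM hk Prod.fst
  have hXge : expEnt Ω m Prod.fst ^ k ≤
      (((orb (baseW Ω m k)).image fxW).card : ℝ) * lossD k (totW Ω m) ^ Ω.card := by
    rw [hXorb]
    exact le_card_orb hm hM hk Prod.fst
  have hTle : ((orb (baseW Ω m k)).card : ℝ) ≤ lossD k (totW Ω m) * expEnt Ω m id ^ k :=
    card_orb_le hm hM hk id
  have hTge : expEnt Ω m id ^ k ≤ ((orb (baseW Ω m k)).card : ℝ) * lossD k (totW Ω m) ^ Ω.card :=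
    le_card_orb hm hM hk id
  have hTcard : ((orb (baseW Ω m k)).card : ℝ) = (((orb (baseW Ω m k)).image fxW).card : ℝ) *
      ((fibW (orb (baseW Ω m k)) (fxW (baseW Ω m k))).card : ℝ) := by
    exact_mod_cast card_orb_eq_mul (baseW Ω m k)
  have hF0 : (0 : ℝ) ≤ ((fibW (orb (baseW Ω m k)) (fxW (baseW Ω m k))).card : ℝ) := Nat.cast_nonneg _
  generalize ((fibW (orb (baseW Ω m k)) (fxW (baseW Ω m k))).card : ℝ) = F at *
  generalize (((orb (baseW Ω m k)).image fxW).card : ℝ) = X at *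
  generalize ((orb (baseW Ω m k)).card : ℝ) = Tc at *
  have hExpos : 0 < expEnt Ω m Prod.fst := expEnt_pos hm hM _
  have hEzpos : 0 < expEnt Ω m id := expEnt_pos hm hM _
  have hD1 := one_le_lossD hk hM
  generalize lossD k (totW Ω m) = D at *
  generalize expEnt Ω m Prod.fst = Ex at *
  generalize expEnt Ω m id = Ez at *
  generalize Ω.card = c at *
  have hDpos : 0 < D := by linarith
  have hEkpos : 0 < Ex ^ k := by positivity
  have hEzx : (Ez / Ex) ^ k = Ez ^ k / Ex ^ k := div_pow _ _ _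
  refine ⟨hXle, hXge, ?_, ?_⟩
  · rw [hEzx, div_div, div_le_iff₀ (by positivity)]
    calc Ez ^ k ≤ Tc * D ^ c := hTge
      _ = X * F * D ^ c := by rw [hTcard]
      _ ≤ (D * Ex ^ k) * F * D ^ c := by gcongr
      _ = _ := by ring
  · rw [hEzx, mul_div_assoc', le_div_iff₀ hEkpos]
    calc F * Ex ^ k ≤ F * (X * D ^ c) := by gcongr
      _ = Tc * D ^ c := by rw [hTcard]; ring
      _ ≤ (D * Ez ^ k) * D ^ c := by gcongr
      _ = _ := by ring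

/-- The inequality at tensor power `k`. -/
lemma level_entropic {p₁ p₂ p₃ r : ℝ≥0∞} {C : NNReal}
    (hC : ∀ f₁ f₂ f₃ : 𝓢(ℝ, ℂ), eLpNorm (hilbertT f₁ f₂ f₃) r volume ≤
      C * (eLpNorm f₁ p₁ volume * eLpNorm f₂ p₂ volume * eLpNorm f₃ p₃ volume))
    (hr0 : r ≠ 0) (hrtop : r ≠ ⊤)
    (hsum : 1 / p₁.toReal + 1 / p₂.toReal + 1 / p₃.toReal = 1 / r.toReal)
    (hm : ∀ z ∈ Ω, 0 < m z) (hM : 1 ≤ totW Ω m)
    {B : ℝ} (hB1 : expEnt Ω m Prod.fst ≤ B)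
    (hB2 : expEnt Ω m id / expEnt Ω m Prod.fst ≤ B)
    {M₀ : ℤ} (hM₀0 : 0 ≤ M₀) (hM₀ : ∀ z ∈ Ω, |z.1| ≤ M₀ ∧ |z.2| ≤ M₀)
    {k : ℕ} (hk : 1 ≤ k) :
    ((expEnt Ω m Prod.fst ^ (1 / r.toReal) * (expEnt Ω m id / expEnt Ω m Prod.fst)) /
      (B * (expEnt Ω m (form 1) ^ (1 / p₁.toReal) * expEnt Ω m (form 2) ^ (1 / p₂.toReal) *
        expEnt Ω m (form 3) ^ (1 / p₃.toReal)))) ^ k ≤
      (C : ℝ) * (4 * lossD k (totW Ω m)) ^ (1 / r.toReal) * (16 : ℝ) ^ (1 / r.toReal) * 16 *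
        (143 + 40 * (M₀ : ℝ)) * lossD k (totW Ω m) ^ (Ω.card + 2) *
        (2 * lossD k (totW Ω m) ^ Ω.card) ^ (1 / r.toReal) *
        lossD k (totW Ω m) ^ (Ω.card + 1) * 2 := by
  classical
  have hρ : 0 < r.toReal := ENNReal.toReal_pos hr0 hrtop
  have hD1 := one_le_lossD hk hM
  have hEx1 : 1 ≤ expEnt Ω m Prod.fst := one_le_expEnt hm hM _
  have hB0 : 1 ≤ B := le_trans hEx1 hB1
  have hEzpos : 0 < expEnt Ω m id := expEnt_pos hm hM _
  have hExpos : 0 < expEnt Ω m Prod.fst := by linarith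
  obtain ⟨hXle, hXge, hFge, hFle⟩ := bounds_XF hm hM hk
  have hne : Nonempty (Idx Ω m k) := by
    apply Fintype.card_pos_iff.mp
    rw [card_Idx]
    exact Nat.mul_pos hk hM
  obtain ⟨P, ℓ, hPbd, hPwt, hPform, hPℓ⟩ := exists_hashed_config (baseW Ω m k) hM₀0
    (fun a => hM₀ _ a.1.2) hρ
  have hconf := config_ineq hC hr0 hrtop hPbd (by positivity)
  have hcastℓ : ((ℓ : ℤ) : ℝ) = (ℓ : ℝ) := Int.cast_natCast ℓ
  rw [hcastℓ] at hconf
  have hD : (Fintype.card (Idx Ω m k) : ℝ) ≤ lossD k (totW Ω m) := by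
    rw [card_Idx]
    unfold lossD
    push_cast
    have he1 : (1 : ℝ) ≤ Real.exp 1 := by
      have := Real.add_one_le_exp (1 : ℝ)
      linarith
    have : (0 : ℝ) ≤ (k : ℝ) * ((totW Ω m : ℕ) : ℝ) := by positivity
    nlinarith
  have hDpos : 0 < lossD k (totW Ω m) := by linarith
  have hBk : expEnt Ω m Prod.fst ^ k ≤ B ^ k := pow_le_pow_left₀ hExpos.le hB1 k
  have hBk2 : (expEnt Ω m id / expEnt Ω m Prod.fst) ^ k ≤ B ^ k :=
    pow_le_pow_left₀ (by positivity) hB2 k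
  have hM₀real : (0 : ℝ) ≤ (M₀ : ℝ) := by exact_mod_cast hM₀0
  have hprime := prime_bound (c := Ω.card) (k := k) hD (by positivity) hD1 hB0 (Nat.cast_nonneg _)
    (Nat.cast_nonneg _) hM₀real (le_trans hXle (mul_le_mul_of_nonneg_left hBk hDpos.le))
    (le_trans hFle (mul_le_mul_of_nonneg_left hBk2 (by positivity))) hPℓ
  have hscale : ∀ {Y O E a : ℝ}, Y ≤ O * a → O ≤ lossD k (totW Ω m) * E ^ k → 0 < E → 0 ≤ a →
      a ≤ 4 → Y ≤ (4 * lossD k (totW Ω m)) * E ^ k := by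
    intro Y O E a h1 h2 hE ha0 ha
    have hp : 0 < E ^ k := pow_pos hE k
    have hq : 0 < lossD k (totW Ω m) * E ^ k := mul_pos hDpos hp
    calc Y ≤ O * a := h1
      _ ≤ (lossD k (totW Ω m) * E ^ k) * a := mul_le_mul_of_nonneg_right h2 ha0
      _ ≤ (lossD k (totW Ω m) * E ^ k) * 4 := mul_le_mul_of_nonneg_left ha hq.le
      _ = (4 * lossD k (totW Ω m)) * E ^ k := by ring
  have hY1 : ((P.image (form 1)).card : ℝ) ≤ (4 * lossD k (totW Ω m)) * expEnt Ω m (form 1) ^ k := by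
    have h1 := hPform 1
    rw [image_faW_orb] at h1
    simp only [Nat.cast_one] at h1
    have h4 : ((P.image (form 1)).card : ℝ) ≤ ((orb (form 1 ∘ baseW Ω m k)).card : ℝ) * 2 := by
      exact_mod_cast h1
    exact hscale h4 (card_orb_le hm hM hk (form 1)) (expEnt_pos hm hM _) (by norm_num) (by norm_num)
  have hY2 : ((P.image (form 2)).card : ℝ) ≤ (4 * lossD k (totW Ω m)) * expEnt Ω m (form 2) ^ k := by
    have h1 := hPform 2
    rw [image_faW_orb] at h1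
    simp only [Nat.cast_ofNat] at h1
    have h4 : ((P.image (form 2)).card : ℝ) ≤ ((orb (form 2 ∘ baseW Ω m k)).card : ℝ) * 3 := by
      exact_mod_cast h1
    exact hscale h4 (card_orb_le hm hM hk (form 2)) (expEnt_pos hm hM _) (by norm_num) (by norm_num)
  have hY3 : ((P.image (form 3)).card : ℝ) ≤ (4 * lossD k (totW Ω m)) * expEnt Ω m (form 3) ^ k := by
    have h1 := hPform 3
    rw [image_faW_orb] at h1
    simp only [Nat.cast_ofNat] at h1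
    have h4 : ((P.image (form 3)).card : ℝ) ≤ ((orb (form 3 ∘ baseW Ω m k)).card : ℝ) * 4 := by
      exact_mod_cast h1
    exact hscale h4 (card_orb_le hm hM hk (form 3)) (expEnt_pos hm hM _) (by norm_num) (by norm_num)
  have hfxpos : (0 : ℝ) < (((orb (baseW Ω m k)).image fxW).card : ℝ) := by
    have : 0 < ((orb (baseW Ω m k)).image fxW).card :=
      Finset.card_pos.mpr ⟨_, Finset.mem_image_of_mem _ (mem_orb_self _)⟩
    exact_mod_cast this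
  have hfbpos : (0 : ℝ) < ((fibW (orb (baseW Ω m k)) (fxW (baseW Ω m k))).card : ℝ) := by
    have : 0 < (fibW (orb (baseW Ω m k)) (fxW (baseW Ω m k))).card :=
      Finset.card_pos.mpr ⟨_, Finset.mem_filter.mpr ⟨mem_orb_self _, rfl⟩⟩
    exact_mod_cast this
  exact level_assemble (s₁ := 1 / p₁.toReal) (s₂ := 1 / p₂.toReal) (s₃ := 1 / p₃.toReal)
    (S := 1 / r.toReal) (ρ := r.toReal) (A := 143 + 40 * (M₀ : ℝ)) (c := Ω.card) (k := k)
    hρ rfl hsum (by positivity) (by positivity) (by positivity) (NNReal.coe_nonneg C) hD1 hExpos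
    hEzpos (by linarith) (by positivity) (expEnt_pos hm hM _) (expEnt_pos hm hM _)
    (expEnt_pos hm hM _) rfl hfxpos hfbpos (by positivity) (Finset.sum_nonneg fun n _ => by positivity)
    (Nat.cast_nonneg _) (Nat.cast_nonneg _) (Nat.cast_nonneg _) hconf hPwt hXge hFge hprime hY1 hY2 hY3

/-- The main conclusion, in terms of the exponential of `M` times the entropy. -/
theorem entropic_ineq {p₁ p₂ p₃ r : ℝ≥0∞} (hr0 : r ≠ 0) (hrtop : r ≠ ⊤)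
    (hsum : 1 / p₁.toReal + 1 / p₂.toReal + 1 / p₃.toReal = 1 / r.toReal)
    (hb : BoundedAt p₁ p₂ p₃ r)
    (hm : ∀ z ∈ Ω, 0 < m z) (hΩ : Ω.Nonempty)
    {B : ℝ} (hB1 : expEnt Ω m Prod.fst ≤ B)
    (hB2 : expEnt Ω m id / expEnt Ω m Prod.fst ≤ B) :
    expEnt Ω m Prod.fst ^ (1 / r.toReal) * (expEnt Ω m id / expEnt Ω m Prod.fst) ≤
      B * (expEnt Ω m (form 1) ^ (1 / p₁.toReal) * expEnt Ω m (form 2) ^ (1 / p₂.toReal) *
        expEnt Ω m (form 3) ^ (1 / p₃.toReal)) := by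
  classical
  obtain ⟨C, hC⟩ := hb
  obtain ⟨M₀, hM₀0, hM₀⟩ := exists_bound Ω
  have hM : 1 ≤ totW Ω m := by
    obtain ⟨z, hz⟩ := hΩ
    have h1 : m z ≤ totW Ω m := Finset.single_le_sum (f := m) (fun _ _ => Nat.zero_le _) hz
    have h2 := hm z hz
    omega
  have hρ : 0 < r.toReal := ENNReal.toReal_pos hr0 hrtop
  have hEx1 : 1 ≤ expEnt Ω m Prod.fst := one_le_expEnt hm hM _
  have hBpos : 0 < B := by linarith
  set S := 1 / r.toReal with hS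
  set s₁ := 1 / p₁.toReal with hs₁
  set s₂ := 1 / p₂.toReal with hs₂
  set s₃ := 1 / p₃.toReal with hs₃
  set Pz := expEnt Ω m (form 1) ^ s₁ * expEnt Ω m (form 2) ^ s₂ * expEnt Ω m (form 3) ^ s₃ with hPz
  have hPzpos : 0 < Pz := by
    have h1 := expEnt_pos (π := form 1) hm hM
    have h2 := expEnt_pos (π := form 2) hm hM
    have h3 := expEnt_pos (π := form 3) hm hM
    positivity
  set U := expEnt Ω m Prod.fst ^ S * (expEnt Ω m id / expEnt Ω m Prod.fst) / (B * Pz) with hU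
  by_contra hcon
  push Not at hcon
  have hU1 : 1 < U := by
    rw [hU, one_lt_div (by positivity)]
    exact hcon
  -- polynomial growth of the right side
  set n₁ := ⌈S⌉₊ with hn₁
  set c := Ω.card with hc
  set n := n₁ + (c + 2) + c * n₁ + (c + 1) with hn
  set Mt := totW Ω m with hMt
  set a : ℝ := Real.exp 1 * (Mt : ℝ) with ha
  have hapos : 0 < a := by
    have : (0 : ℝ) < (Mt : ℝ) := by exact_mod_cast hM
    positivity
  set A : ℝ := 143 + 40 * (M₀ : ℝ) with hA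
  have hM₀real : (0 : ℝ) ≤ (M₀ : ℝ) := by exact_mod_cast hM₀0
  have hApos : 0 < A := by positivity
  set K₀ : ℝ := (C : ℝ) * (4 : ℝ) ^ S * (16 : ℝ) ^ S * 16 * A * (2 : ℝ) ^ S * 2 * a ^ n with hK₀
  have hK₀nn : 0 ≤ K₀ := by positivity
  have hlevel : ∀ k : ℕ, 1 ≤ k → U ^ k ≤ K₀ * (k : ℝ) ^ n := by
    intro k hk
    have h := level_entropic hC hr0 hrtop hsum hm hM hB1 hB2 hM₀0 hM₀ hk
    have hD1 : 1 ≤ lossD k Mt := one_le_lossD hk hM
    have hDpos : 0 < lossD k Mt := by linarith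
    have hDS : lossD k Mt ^ S ≤ lossD k Mt ^ n₁ := by
      rw [← Real.rpow_natCast]
      exact Real.rpow_le_rpow_of_exponent_le hD1 (Nat.le_ceil S)
    have e1 : (4 * lossD k Mt) ^ S = (4 : ℝ) ^ S * lossD k Mt ^ S :=
      Real.mul_rpow (by norm_num) hDpos.le
    have e2 : (2 * lossD k Mt ^ c) ^ S = (2 : ℝ) ^ S * (lossD k Mt ^ S) ^ c := by
      rw [Real.mul_rpow (by norm_num) (by positivity), rpow_pow_comm hDpos.le]
    have hDn : lossD k Mt ^ n = (a * (k : ℝ)) ^ n := by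
      congr 1
      unfold lossD
      rw [ha]
      ring
    refine le_trans h ?_
    rw [e1, e2]
    have hS0 : 0 ≤ lossD k Mt ^ S := by positivity
    have h3 : (C : ℝ) * ((4 : ℝ) ^ S * lossD k Mt ^ S) * (16 : ℝ) ^ S * 16 * A *
        lossD k Mt ^ (c + 2) * ((2 : ℝ) ^ S * (lossD k Mt ^ S) ^ c) * lossD k Mt ^ (c + 1) * 2 ≤
        (C : ℝ) * ((4 : ℝ) ^ S * lossD k Mt ^ n₁) * (16 : ℝ) ^ S * 16 * A *
        lossD k Mt ^ (c + 2) * ((2 : ℝ) ^ S * (lossD k Mt ^ n₁) ^ c) * lossD k Mt ^ (c + 1) * 2 := by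
      gcongr
    refine le_trans h3 (le_of_eq ?_)
    rw [hK₀, mul_assoc _ (a ^ n), ← mul_pow, ← hDn, hn]
    ring
  -- contradiction
  have htend := tendsto_pow_const_div_const_pow_of_one_lt n hU1
  have hev : ∀ᶠ k : ℕ in atTop, (k : ℝ) ^ n / U ^ k < 1 / (K₀ + 1) :=
    htend.eventually (gt_mem_nhds (by positivity))
  obtain ⟨k, hk1, hk2⟩ := (hev.and (eventually_ge_atTop 1)).exists
  have h1 := hlevel k hk2
  have hUk : 0 < U ^ k := by positivity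
  rw [div_lt_div_iff₀ hUk (by positivity)] at hk1
  have hkn : 0 ≤ (k : ℝ) ^ n := by positivity
  nlinarith

end level

end Vale.Agent.Lib.P141
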