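import Mathlib
import Vale.Agent.Lib.P141.Master

open MeasureTheory Filter Topology Set
open scoped ENNReal SchwartzMap

namespace Vale.Agent.Lib.P141

/-- The exponents of a Holder tuple. -/
lemma holder_sum {p₁ p₂ p₃ r : ℝ≥0∞} (h : IsHolder p₁ p₂ p₃ r) :
    1 / p₁.toReal + 1 / p₂.toReal + 1 / p₃.toReal = 1 / r.toReal := by
  have hne : ∀ {p : ℝ≥0∞}, 1 < p → 1 / p ≠ ⊤ := by
    intro p hp
    have hp0 : p ≠ 0 := (lt_trans zero_lt_one hp).ne'
    simp [hp0]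
  have h1 := congrArg ENNReal.toReal h.holder
  rw [ENNReal.toReal_add (ENNReal.add_ne_top.mpr ⟨hne h.one_lt_p₁, hne h.one_lt_p₂⟩)
    (hne h.one_lt_p₃), ENNReal.toReal_add (hne h.one_lt_p₁) (hne h.one_lt_p₂)] at h1
  simp only [ENNReal.toReal_div, ENNReal.toReal_one] at h1
  exact h1.symm

/-- The hexagonal configuration. -/
def hexP : Finset (ℤ × ℤ) :=
  {(-2, -2), (-3, -3), (-4, -4), (2, 0), (1, -1), (0, -2), (-1, -3), (6, 2), (5, 1), (4, 0),
    (3, -1), (2, -2), (9, 3), (8, 2), (7, 1), (6, 0), (12, 4), (11, 3), (10, 2)}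

lemma hexP_admissible : Admissible 17 hexP := by
  constructor <;> decide

lemma hex_card_form1 : (hexP.image (form 1)).card = 5 := by decide
lemma hex_card_form2 : (hexP.image (form 2)).card = 5 := by decide
lemma hex_card_form3 : (hexP.image (form 3)).card = 5 := by decide

lemma hex_wt (ρ : ℝ) : wt ρ hexP = 15 + 2 * 2 ^ ρ := by
  have hX : hexP.image Prod.fst = {2, 6, -4, -3, -2, -1, 0, 1, 3, 4, 5, 7, 8, 9, 10, 11, 12} := by
    decide
  have hf2 : fib hexP 2 = 2 := by decide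
  have hf6 : fib hexP 6 = 2 := by decide
  have hf1 : ∀ n ∈ ({-4, -3, -2, -1, 0, 1, 3, 4, 5, 7, 8, 9, 10, 11, 12} : Finset ℤ),
      fib hexP n = 1 := by decide
  unfold wt
  rw [hX, Finset.sum_insert (by decide), Finset.sum_insert (by decide), hf2, hf6,
    Finset.sum_congr rfl (fun n hn => by rw [hf1 n hn])]
  simp only [Nat.cast_one, Real.one_rpow, Finset.sum_const, nsmul_eq_mul]
  have hc : ({-4, -3, -2, -1, 0, 1, 3, 4, 5, 7, 8, 9, 10, 11, 12} : Finset ℤ).card = 15 := by decide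
  rw [hc]
  push_cast
  ring

/-- Numerical inequality for the hexagon. -/
lemma hex_numeric {ρ : ℝ} (hρ : 0 < ρ) (hρ' : ρ ≤ 4 / 9) :
    (17 : ℝ) ^ ρ * 5 < 15 + 2 * 2 ^ ρ := by
  have h2 : (1 : ℝ) ≤ 2 ^ ρ := Real.one_le_rpow (by norm_num) hρ.le
  by_cases hc : ρ ≤ 3 / 7
  · have h17 : (17 : ℝ) ^ ρ ≤ 17 ^ (3 / 7 : ℝ) :=
      Real.rpow_le_rpow_of_exponent_le (by norm_num) hc
    have h3 : (17 : ℝ) ^ (3 / 7 : ℝ) < 3.4 := by
      have hp : ((17 : ℝ) ^ (3 / 7 : ℝ)) ^ 7 = 17 ^ 3 := by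
        rw [← Real.rpow_natCast, ← Real.rpow_mul (by norm_num)]
        norm_num
      apply lt_of_pow_lt_pow_left₀ 7 (by norm_num)
      rw [hp]; norm_num
    nlinarith
  · push Not at hc
    have h17 : (17 : ℝ) ^ ρ ≤ 17 ^ (4 / 9 : ℝ) :=
      Real.rpow_le_rpow_of_exponent_le (by norm_num) hρ'
    have h3 : (17 : ℝ) ^ (4 / 9 : ℝ) < 3.538 := by
      have hp : ((17 : ℝ) ^ (4 / 9 : ℝ)) ^ 9 = 17 ^ 4 := by
        rw [← Real.rpow_natCast, ← Real.rpow_mul (by norm_num)]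
        norm_num
      apply lt_of_pow_lt_pow_left₀ 9 (by norm_num)
      rw [hp]; norm_num
    have h4 : (1.345 : ℝ) ≤ 2 ^ (3 / 7 : ℝ) := by
      have hp : ((2 : ℝ) ^ (3 / 7 : ℝ)) ^ 7 = 2 ^ 3 := by
        rw [← Real.rpow_natCast, ← Real.rpow_mul (by norm_num)]
        norm_num
      apply le_of_pow_le_pow_left₀ (n := 7) (by norm_num) (by positivity)
      rw [hp]; norm_num
    have h5 : (2 : ℝ) ^ (3 / 7 : ℝ) ≤ 2 ^ ρ :=
      Real.rpow_le_rpow_of_exponent_le (by norm_num) hc.le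
    nlinarith

/-- If `r ≤ 4/9` the transform is unbounded at the Holder tuple. -/
theorem not_boundedAt_of_le {p₁ p₂ p₃ r : ℝ≥0∞} (h : IsHolder p₁ p₂ p₃ r)
    (hr : r.toReal ≤ 4 / 9) : ¬ BoundedAt p₁ p₂ p₃ r := by
  have hr0 : r ≠ 0 := h.r_pos.ne'
  have hrtop : r ≠ ⊤ := h.r_lt_top.ne
  have hρ : 0 < r.toReal := ENNReal.toReal_pos hr0 hrtop
  refine not_boundedAt_of_config hr0 hrtop hexP (L := 17) (by norm_num) hexP_admissible ?_
  rw [hex_card_form1, hex_card_form2, hex_card_form3, hex_wt]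
  have hsum := holder_sum h
  have h5 : (5 : ℝ) ^ (1 / p₁.toReal) * 5 ^ (1 / p₂.toReal) * 5 ^ (1 / p₃.toReal) =
      5 ^ (1 / r.toReal) := by
    rw [← hsum, Real.rpow_add (by norm_num), Real.rpow_add (by norm_num)]
  push_cast
  rw [h5]
  have hnum := hex_numeric hρ hr
  have h6 := Real.rpow_lt_rpow (by positivity) hnum (show 0 < 1 / r.toReal by positivity)
  rw [Real.mul_rpow (by positivity) (by norm_num), ← Real.rpow_mul (by norm_num),
    mul_one_div_cancel hρ.ne', Real.rpow_one] at h6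
  exact h6

end Vale.Agent.Lib.P141
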