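import Mathlib
import Vale.Agent.Lib.P141.Hex

open MeasureTheory Filter Topology Set
open scoped ENNReal SchwartzMap

namespace Vale.Agent.Lib.P141

/-- When `x` determines the pair, the weighted count is just the cardinality. -/
lemma wt_of_injOn {P : Finset (ℤ × ℤ)} (hinj : ∀ z ∈ P, ∀ w ∈ P, z.1 = w.1 → z = w) (ρ : ℝ) :
    wt ρ P = P.card := by
  classical
  have h1 : ∀ n ∈ P.image Prod.fst, fib P n = 1 := by
    intro n hn
    obtain ⟨z, hz, rfl⟩ := Finset.mem_image.mp hn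
    unfold fib
    rw [Finset.card_eq_one]
    refine ⟨z, ?_⟩
    ext w
    simp only [Finset.mem_filter, Finset.mem_singleton]
    constructor
    · rintro ⟨hw, hw1⟩
      exact hinj w hw z hz hw1
    · rintro rfl
      exact ⟨hz, rfl⟩
  unfold wt
  rw [Finset.sum_congr rfl (fun n hn => by rw [h1 n hn])]
  simp only [Nat.cast_one, Real.one_rpow, Finset.sum_const, nsmul_eq_mul, mul_one]
  rw [Finset.card_image_of_injOn]
  intro z hz w hw h
  exact hinj z hz w hw h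

/-- Criterion for configurations in which `x` determines the pair, with `L = |P|`. -/
theorem not_boundedAt_of_injective {p₁ p₂ p₃ r : ℝ≥0∞} (h : IsHolder p₁ p₂ p₃ r)
    (P : Finset (ℤ × ℤ)) {N : ℕ} (hN : 2 ≤ N) (hcard : P.card = N)
    (hinj : ∀ z ∈ P, ∀ w ∈ P, z.1 = w.1 → z = w)
    (hres : ∀ z ∈ P, ∀ w ∈ P, (N : ℤ) ∣ z.1 - w.1 → z.1 = w.1)
    {n₁ n₂ n₃ : ℕ} (h₁ : (P.image (form 1)).card ≤ n₁) (h₂ : (P.image (form 2)).card ≤ n₂)
    (h₃ : (P.image (form 3)).card ≤ n₃)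
    (hgt : (N : ℝ) * ((n₁ : ℝ) ^ (1 / p₁.toReal) * (n₂ : ℝ) ^ (1 / p₂.toReal) *
      (n₃ : ℝ) ^ (1 / p₃.toReal)) < (N : ℝ) ^ (1 / p₁.toReal + 1 / p₂.toReal + 1 / p₃.toReal)) :
    ¬ BoundedAt p₁ p₂ p₃ r := by
  have hr0 : r ≠ 0 := h.r_pos.ne'
  have hrtop : r ≠ ⊤ := h.r_lt_top.ne
  have hadm : Admissible (N : ℤ) P := by
    constructor
    · intro z hz w hw h1 _
      exact hinj z hz w hw (hres z hz w hw h1)
    · exact hres
  refine not_boundedAt_of_config hr0 hrtop P (L := (N : ℤ)) (by exact_mod_cast hN) hadm ?_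
  rw [wt_of_injOn hinj, hcard, ← holder_sum h]
  refine lt_of_le_of_lt ?_ hgt
  push_cast
  gcongr

/-- The first family: `x = 4 i - j`, `t = 2 i - j`, `i < n`, `j < 4`. -/
def famB (n : ℕ) : Finset (ℤ × ℤ) :=
  ((Finset.range n) ×ˢ (Finset.range 4)).image
    (fun q => (4 * (q.1 : ℤ) - q.2, 2 * (q.1 : ℤ) - q.2))

/-- The second family: `x = 3 i - j`, `t = i - j`, `i < n`, `j < 3`. -/
def famC (n : ℕ) : Finset (ℤ × ℤ) :=
  ((Finset.range n) ×ˢ (Finset.range 3)).image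
    (fun q => (3 * (q.1 : ℤ) - q.2, (q.1 : ℤ) - q.2))

lemma famB_fst_inj {i i' j j' : ℕ} (hj : j < 4) (hj' : j' < 4)
    (h : 4 * (i : ℤ) - j = 4 * (i' : ℤ) - j') : i = i' ∧ j = j' := by
  omega

lemma famC_fst_inj {i i' j j' : ℕ} (hj : j < 3) (hj' : j' < 3)
    (h : 3 * (i : ℤ) - j = 3 * (i' : ℤ) - j') : i = i' ∧ j = j' := by
  omega

lemma famB_mem {n : ℕ} {z : ℤ × ℤ} (hz : z ∈ famB n) :
    ∃ i j : ℕ, i < n ∧ j < 4 ∧ z = (4 * (i : ℤ) - j, 2 * (i : ℤ) - j) := by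
  obtain ⟨q, hq, rfl⟩ := Finset.mem_image.mp hz
  obtain ⟨h1, h2⟩ := Finset.mem_product.mp hq
  exact ⟨q.1, q.2, Finset.mem_range.mp h1, Finset.mem_range.mp h2, rfl⟩

lemma famC_mem {n : ℕ} {z : ℤ × ℤ} (hz : z ∈ famC n) :
    ∃ i j : ℕ, i < n ∧ j < 3 ∧ z = (3 * (i : ℤ) - j, (i : ℤ) - j) := by
  obtain ⟨q, hq, rfl⟩ := Finset.mem_image.mp hz
  obtain ⟨h1, h2⟩ := Finset.mem_product.mp hq
  exact ⟨q.1, q.2, Finset.mem_range.mp h1, Finset.mem_range.mp h2, rfl⟩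

lemma famB_card (n : ℕ) : (famB n).card = 4 * n := by
  unfold famB
  rw [Finset.card_image_of_injOn, Finset.card_product, Finset.card_range, Finset.card_range,
    mul_comm]
  rintro ⟨i, j⟩ h1 ⟨i', j'⟩ h2 h
  simp only [Finset.coe_product, Set.mem_prod, Finset.coe_range, Set.mem_Iio] at h1 h2
  simp only [Prod.mk.injEq] at h
  obtain ⟨h3, h4⟩ := famB_fst_inj h1.2 h2.2 h.1
  exact Prod.ext h3 h4

lemma famC_card (n : ℕ) : (famC n).card = 3 * n := by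
  unfold famC
  rw [Finset.card_image_of_injOn, Finset.card_product, Finset.card_range, Finset.card_range,
    mul_comm]
  rintro ⟨i, j⟩ h1 ⟨i', j'⟩ h2 h
  simp only [Finset.coe_product, Set.mem_prod, Finset.coe_range, Set.mem_Iio] at h1 h2
  simp only [Prod.mk.injEq] at h
  obtain ⟨h3, h4⟩ := famC_fst_inj h1.2 h2.2 h.1
  exact Prod.ext h3 h4

lemma famB_inj {n : ℕ} : ∀ z ∈ famB n, ∀ w ∈ famB n, z.1 = w.1 → z = w := by
  intro z hz w hw h
  obtain ⟨i, j, _, hj, rfl⟩ := famB_mem hz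
  obtain ⟨i', j', _, hj', rfl⟩ := famB_mem hw
  obtain ⟨rfl, rfl⟩ := famB_fst_inj hj hj' h
  rfl

lemma famC_inj {n : ℕ} : ∀ z ∈ famC n, ∀ w ∈ famC n, z.1 = w.1 → z = w := by
  intro z hz w hw h
  obtain ⟨i, j, _, hj, rfl⟩ := famC_mem hz
  obtain ⟨i', j', _, hj', rfl⟩ := famC_mem hw
  obtain ⟨rfl, rfl⟩ := famC_fst_inj hj hj' h
  rfl

lemma eq_of_dvd_of_abs_lt {N a b : ℤ} (hd : N ∣ a - b) (hlt : |a - b| < N) : a = b := by
  have := Int.eq_zero_of_abs_lt_dvd hd hlt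
  linarith

lemma famB_res {n : ℕ} : ∀ z ∈ famB n, ∀ w ∈ famB n, ((4 * n : ℕ) : ℤ) ∣ z.1 - w.1 → z.1 = w.1 := by
  intro z hz w hw hd
  obtain ⟨i, j, hi, hj, rfl⟩ := famB_mem hz
  obtain ⟨i', j', hi', hj', rfl⟩ := famB_mem hw
  apply eq_of_dvd_of_abs_lt hd
  rw [abs_lt]
  push_cast
  constructor <;> omega

lemma famC_res {n : ℕ} : ∀ z ∈ famC n, ∀ w ∈ famC n, ((3 * n : ℕ) : ℤ) ∣ z.1 - w.1 → z.1 = w.1 := by
  intro z hz w hw hd
  obtain ⟨i, j, hi, hj, rfl⟩ := famC_mem hz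
  obtain ⟨i', j', hi', hj', rfl⟩ := famC_mem hw
  apply eq_of_dvd_of_abs_lt hd
  rw [abs_lt]
  push_cast
  constructor <;> omega

/-- Bound on a projection by the image of `range m`. -/
lemma card_image_le_of_forall {P : Finset (ℤ × ℤ)} {k : ℤ} {m : ℕ} (g : ℕ → ℤ)
    (h : ∀ z ∈ P, ∃ a < m, form k z = g a) : (P.image (form k)).card ≤ m := by
  classical
  have hsub : P.image (form k) ⊆ (Finset.range m).image g := by
    intro y hy
    obtain ⟨z, hz, rfl⟩ := Finset.mem_image.mp hy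
    obtain ⟨a, ha, he⟩ := h z hz
    exact Finset.mem_image.mpr ⟨a, Finset.mem_range.mpr ha, he.symm⟩
  calc _ ≤ _ := Finset.card_le_card hsub
    _ ≤ _ := Finset.card_image_le
    _ = m := Finset.card_range m

lemma famB_form1 (n : ℕ) : ((famB n).image (form 1)).card ≤ n :=
  card_image_le_of_forall (fun a => 2 * (a : ℤ)) fun z hz => by
    obtain ⟨i, j, hi, _, rfl⟩ := famB_mem hz
    exact ⟨i, hi, by simp only [form]; ring⟩

lemma famB_form2 (n : ℕ) : ((famB n).image (form 2)).card ≤ 4 :=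
  card_image_le_of_forall (fun a => (a : ℤ)) fun z hz => by
    obtain ⟨i, j, _, hj, rfl⟩ := famB_mem hz
    exact ⟨j, hj, by simp only [form]; ring⟩

lemma famB_form3 (n : ℕ) : ((famB n).image (form 3)).card ≤ n + 3 :=
  card_image_le_of_forall (fun a => 6 - 2 * (a : ℤ)) fun z hz => by
    obtain ⟨i, j, hi, hj, rfl⟩ := famB_mem hz
    refine ⟨3 - j + i, by omega, ?_⟩
    simp only [form]
    have : ((3 - j + i : ℕ) : ℤ) = 3 - j + i := by omega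
    rw [this]
    ring

lemma famC_form1 (n : ℕ) : ((famC n).image (form 1)).card ≤ n :=
  card_image_le_of_forall (fun a => 2 * (a : ℤ)) fun z hz => by
    obtain ⟨i, j, hi, _, rfl⟩ := famC_mem hz
    exact ⟨i, hi, by simp only [form]; ring⟩

lemma famC_form2 (n : ℕ) : ((famC n).image (form 2)).card ≤ n + 2 :=
  card_image_le_of_forall (fun a => (a : ℤ)) fun z hz => by
    obtain ⟨i, j, hi, hj, rfl⟩ := famC_mem hz
    refine ⟨i + j, by omega, ?_⟩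
    simp only [form]
    push_cast
    ring

lemma famC_form3 (n : ℕ) : ((famC n).image (form 3)).card ≤ 3 :=
  card_image_le_of_forall (fun a => 2 * (a : ℤ)) fun z hz => by
    obtain ⟨i, j, _, hj, rfl⟩ := famC_mem hz
    exact ⟨j, hj, by simp only [form]; ring⟩

lemma one_div_toReal (p : ℝ≥0∞) : (1 / p).toReal = 1 / p.toReal := by
  simp [ENNReal.toReal_div]

/-- The first necessary condition. -/
theorem necessary_famB {p₁ p₂ p₃ r : ℝ≥0∞} (h : IsHolder p₁ p₂ p₃ r) (hb : BoundedAt p₁ p₂ p₃ r)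
    {n : ℕ} (hn : 1 ≤ n) :
    (4 : ℝ) ^ (1 / p₁.toReal) * (n : ℝ) ^ (1 / p₂.toReal) *
      (4 * n / (n + 3) : ℝ) ^ (1 / p₃.toReal) ≤ 4 * n := by
  by_contra hlt
  push Not at hlt
  refine not_boundedAt_of_injective h (famB n) (N := 4 * n) (by omega) (famB_card n) famB_inj
    famB_res (famB_form1 n) (famB_form2 n) (famB_form3 n) ?_ hb
  have hn0 : (0 : ℝ) < n := by exact_mod_cast hn
  have e1 : ((4 * n : ℕ) : ℝ) = 4 * n := by push_cast; ring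
  have e2 : ((n + 3 : ℕ) : ℝ) = n + 3 := by push_cast; ring
  rw [e1, e2]
  have e3 : ((4 : ℕ) : ℝ) = 4 := by norm_num
  rw [e3, Real.rpow_add (by positivity), Real.rpow_add (by positivity)]
  have e4 : (4 * (n : ℝ)) ^ (1 / p₁.toReal) = (4 : ℝ) ^ (1 / p₁.toReal) * (n : ℝ) ^ (1 / p₁.toReal) :=
    Real.mul_rpow (by norm_num) hn0.le
  have e5 : (4 * (n : ℝ)) ^ (1 / p₂.toReal) = (4 : ℝ) ^ (1 / p₂.toReal) * (n : ℝ) ^ (1 / p₂.toReal) :=
    Real.mul_rpow (by norm_num) hn0.le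
  have e6 : (4 * (n : ℝ)) ^ (1 / p₃.toReal) =
      (4 * n / (n + 3) : ℝ) ^ (1 / p₃.toReal) * ((n : ℝ) + 3) ^ (1 / p₃.toReal) := by
    rw [← Real.mul_rpow (by positivity) (by positivity)]
    congr 1
    field_simp
  rw [e4, e5, e6]
  have hpos : 0 < (n : ℝ) ^ (1 / p₁.toReal) * (4 : ℝ) ^ (1 / p₂.toReal) *
      ((n : ℝ) + 3) ^ (1 / p₃.toReal) := by positivity
  have := mul_lt_mul_of_pos_right hlt hpos
  calc _ = 4 * (n : ℝ) * ((n : ℝ) ^ (1 / p₁.toReal) * (4 : ℝ) ^ (1 / p₂.toReal) *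
      ((n : ℝ) + 3) ^ (1 / p₃.toReal)) := by ring
    _ < _ := this
    _ = _ := by ring

/-- The second necessary condition. -/
theorem necessary_famC {p₁ p₂ p₃ r : ℝ≥0∞} (h : IsHolder p₁ p₂ p₃ r) (hb : BoundedAt p₁ p₂ p₃ r)
    {n : ℕ} (hn : 1 ≤ n) :
    (3 : ℝ) ^ (1 / p₁.toReal) * (3 * n / (n + 2) : ℝ) ^ (1 / p₂.toReal) *
      (n : ℝ) ^ (1 / p₃.toReal) ≤ 3 * n := by
  by_contra hlt
  push Not at hlt
  refine not_boundedAt_of_injective h (famC n) (N := 3 * n) (by omega) (famC_card n) famC_inj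
    famC_res (famC_form1 n) (famC_form2 n) (famC_form3 n) ?_ hb
  have hn0 : (0 : ℝ) < n := by exact_mod_cast hn
  have e1 : ((3 * n : ℕ) : ℝ) = 3 * n := by push_cast; ring
  have e2 : ((n + 2 : ℕ) : ℝ) = n + 2 := by push_cast; ring
  rw [e1, e2]
  have e3 : ((3 : ℕ) : ℝ) = 3 := by norm_num
  rw [e3, Real.rpow_add (by positivity), Real.rpow_add (by positivity)]
  have e4 : (3 * (n : ℝ)) ^ (1 / p₁.toReal) = (3 : ℝ) ^ (1 / p₁.toReal) * (n : ℝ) ^ (1 / p₁.toReal) :=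
    Real.mul_rpow (by norm_num) hn0.le
  have e5 : (3 * (n : ℝ)) ^ (1 / p₃.toReal) = (3 : ℝ) ^ (1 / p₃.toReal) * (n : ℝ) ^ (1 / p₃.toReal) :=
    Real.mul_rpow (by norm_num) hn0.le
  have e6 : (3 * (n : ℝ)) ^ (1 / p₂.toReal) =
      (3 * n / (n + 2) : ℝ) ^ (1 / p₂.toReal) * ((n : ℝ) + 2) ^ (1 / p₂.toReal) := by
    rw [← Real.mul_rpow (by positivity) (by positivity)]
    congr 1
    field_simp
  rw [e4, e5, e6]
  have hpos : 0 < (n : ℝ) ^ (1 / p₁.toReal) * ((n : ℝ) + 2) ^ (1 / p₂.toReal) *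
      (3 : ℝ) ^ (1 / p₃.toReal) := by positivity
  have := mul_lt_mul_of_pos_right hlt hpos
  calc _ = 3 * (n : ℝ) * ((n : ℝ) ^ (1 / p₁.toReal) * ((n : ℝ) + 2) ^ (1 / p₂.toReal) *
      (3 : ℝ) ^ (1 / p₃.toReal)) := by ring
    _ < _ := this
    _ = _ := by ring

end Vale.Agent.Lib.P141
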