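import Mathlib
import Vale.Agent.Lib.P141.Family

open MeasureTheory Filter Topology Set
open scoped ENNReal SchwartzMap

namespace Vale.Agent.Lib.P141

/-- A Holder tuple from real reciprocals. -/
lemma isHolder_of_reals {a b c ρ : ℝ} (ha : 0 < a) (hb : 0 < b) (hc : 0 < c) (ha1 : a < 1)
    (hb1 : b < 1) (hc1 : c < 1) (hρ : 0 < ρ) (hsum : a + b + c = 1 / ρ) :
    IsHolder (ENNReal.ofReal (1 / a)) (ENNReal.ofReal (1 / b)) (ENNReal.ofReal (1 / c))
      (ENNReal.ofReal ρ) := by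
  have key : ∀ {x : ℝ}, 0 < x → x < 1 → 1 < ENNReal.ofReal (1 / x) := by
    intro x hx hx1
    rw [← ENNReal.ofReal_one]
    exact (ENNReal.ofReal_lt_ofReal_iff (by positivity)).mpr ((one_lt_div hx).mpr hx1)
  have inv : ∀ {x : ℝ}, 0 < x → 1 / ENNReal.ofReal (1 / x) = ENNReal.ofReal x := by
    intro x hx
    rw [one_div, one_div, ENNReal.ofReal_inv_of_pos hx, inv_inv]
  refine ⟨key ha ha1, key hb hb1, key hc hc1, ENNReal.ofReal_pos.mpr hρ, ENNReal.ofReal_lt_top, ?_⟩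
  rw [inv ha, inv hb, inv hc, ← ENNReal.ofReal_add ha.le hb.le,
    ← ENNReal.ofReal_add (by positivity) hc.le, hsum, one_div, one_div, ENNReal.ofReal_inv_of_pos hρ]

lemma toReal_one_div_ofReal {x : ℝ} (hx : 0 < x) : 1 / (ENNReal.ofReal (1 / x)).toReal = x := by
  rw [ENNReal.toReal_ofReal (by positivity)]
  field_simp

theorem exists_not_boundedAt (ρ : ℝ) (h₁ : 1 / 3 < ρ) (h₂ : ρ < 1 / 2) :
    ∃ p₁ p₂ p₃ : ℝ≥0∞, IsHolder p₁ p₂ p₃ (ENNReal.ofReal ρ) ∧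
      ¬ BoundedAt p₁ p₂ p₃ (ENNReal.ofReal ρ) := by
  have hρ : 0 < ρ := by linarith
  have hρtoReal : (ENNReal.ofReal ρ).toReal = ρ := ENNReal.toReal_ofReal hρ.le
  by_cases hc : ρ ≤ 4 / 9
  · have hs : 1 / (3 * ρ) + 1 / (3 * ρ) + 1 / (3 * ρ) = 1 / ρ := by field_simp; norm_num
    have hs0 : 0 < 1 / (3 * ρ) := by positivity
    have hs1 : 1 / (3 * ρ) < 1 := by
      rw [div_lt_one (by positivity)]
      linarith
    have hH := isHolder_of_reals hs0 hs0 hs0 hs1 hs1 hs1 hρ hs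
    exact ⟨_, _, _, hH, not_boundedAt_of_le hH (by rw [hρtoReal]; exact hc)⟩
  · push Not at hc
    set η : ℝ := 1 / ρ - 2 with hη
    have h1r : 1 / ρ < 9 / 4 := by
      rw [div_lt_iff₀ hρ]; linarith
    have h2r : 2 < 1 / ρ := by
      rw [lt_div_iff₀ hρ]; linarith
    have hη0 : 0 < η := by linarith
    have hη1 : η < 1 / 4 := by linarith
    have ha0 : 0 < 1 - η / 5 := by linarith
    have ha1 : 1 - η / 5 < 1 := by linarith
    have hc0 : 0 < 7 * η / 5 := by positivity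
    have hc1 : 7 * η / 5 < 1 := by linarith
    have hs : (1 - η / 5) + (1 - η / 5) + 7 * η / 5 = 1 / ρ := by rw [hη]; ring
    have hH := isHolder_of_reals ha0 ha0 hc0 ha1 ha1 hc1 hρ hs
    refine ⟨_, _, _, hH, fun hb => ?_⟩
    have hnec := necessary_famB hH hb (n := 2) (by norm_num)
    rw [toReal_one_div_ofReal ha0, toReal_one_div_ofReal hc0] at hnec
    norm_num at hnec
    -- the contradiction
    have e1 : (4 : ℝ) ^ (1 - η / 5) * 2 ^ (1 - η / 5) = 8 ^ (1 - η / 5) := by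
      rw [← Real.mul_rpow (by norm_num) (by norm_num)]; norm_num
    have e2 : (8 : ℝ) ^ (1 - η / 5) = 8 * 8 ^ (-(η / 5)) := by
      rw [sub_eq_add_neg, Real.rpow_add (by norm_num), Real.rpow_one]
    have e3 : (8 / 5 : ℝ) ^ (7 * η / 5) = ((8 / 5 : ℝ) ^ (7 : ℝ)) ^ (η / 5) := by
      rw [← Real.rpow_mul (by norm_num)]
      congr 1
      ring
    have e4 : (8 : ℝ) ^ (-(η / 5)) = ((1 / 8 : ℝ)) ^ (η / 5) := by
      rw [Real.rpow_neg (by norm_num), one_div, Real.inv_rpow (by norm_num)]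
    rw [e1, e2, e3, e4, mul_assoc, ← Real.mul_rpow (by norm_num) (by positivity)] at hnec
    have e5 : (1 : ℝ) < 1 / 8 * (8 / 5 : ℝ) ^ (7 : ℝ) := by
      have : ((8 / 5 : ℝ)) ^ (7 : ℝ) = (8 / 5 : ℝ) ^ (7 : ℕ) := by
        rw [← Real.rpow_natCast]; norm_num
      rw [this]; norm_num
    have e6 : (1 : ℝ) < (1 / 8 * (8 / 5 : ℝ) ^ (7 : ℝ)) ^ (η / 5) :=
      Real.one_lt_rpow e5 (by positivity)
    nlinarith

end Vale.Agent.Lib.P141
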