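import Mathlib
import Vale.Agent.Lib.P141.Entropic

open Finset MeasureTheory Filter Topology
open scoped ENNReal SchwartzMap

namespace Vale.Agent.Lib.P141

/-- The Shannon entropy (natural logarithm) of the value of `π` when the point `z` of `Ω`
has probability `μ z`. -/
noncomputable def shan {ι : Type} [DecidableEq ι] (Ω : Finset (ℤ × ℤ)) (μ : ℤ × ℤ → ℝ)
    (π : ℤ × ℤ → ι) : ℝ :=
  ∑ v ∈ Ω.image π, Real.negMulLog (∑ z ∈ Ω.filter (fun z => π z = v), μ z)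

section conversion
variable {Ω : Finset (ℤ × ℤ)} {m : ℤ × ℤ → ℕ}

lemma log_expEnt (hm : ∀ z ∈ Ω, 0 < m z) (hM : 1 ≤ totW Ω m) {ι : Type} [DecidableEq ι]
    (π : ℤ × ℤ → ι) :
    Real.log (expEnt Ω m π) = (totW Ω m : ℝ) * shan Ω (fun z => (m z : ℝ) / (totW Ω m : ℝ)) π := by
  have hM' : (0 : ℝ) < (totW Ω m : ℕ) := by exact_mod_cast hM
  have hw : ∀ v ∈ Ω.image π, (0 : ℝ) < ((wgt Ω m π v : ℕ) : ℝ) := fun v hv => by
    exact_mod_cast wgt_pos hm hv
  have hsum : ∀ v, ∑ z ∈ Ω.filter (fun z => π z = v), (m z : ℝ) / (totW Ω m : ℝ) =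
      ((wgt Ω m π v : ℕ) : ℝ) / (totW Ω m : ℝ) := by
    intro v
    rw [← Finset.sum_div]
    congr 1
    unfold wgt
    push_cast
    rfl
  unfold expEnt shan
  rw [Real.log_div (pow_pos hM' _).ne' (Finset.prod_pos fun v hv => pow_pos (hw v hv) _).ne',
    Real.log_pow, Real.log_prod (fun v hv => (pow_pos (hw v hv) _).ne')]
  simp_rw [hsum]
  rw [Finset.mul_sum]
  have h1 : ((totW Ω m : ℕ) : ℝ) * Real.log ((totW Ω m : ℕ) : ℝ) =
      ∑ v ∈ Ω.image π, ((wgt Ω m π v : ℕ) : ℝ) * Real.log ((totW Ω m : ℕ) : ℝ) := by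
    rw [← Finset.sum_mul]
    congr 1
    exact_mod_cast (sum_wgt π).symm
  rw [h1, ← Finset.sum_sub_distrib]
  refine Finset.sum_congr rfl fun v hv => ?_
  rw [Real.log_pow, Real.negMulLog, Real.log_div (hw v hv).ne' hM'.ne']
  field_simp
  ring

/-- The entropy inequality for natural weights. -/
lemma shan_ineq_nat {p₁ p₂ p₃ r : ℝ≥0∞} (hr0 : r ≠ 0) (hrtop : r ≠ ⊤)
    (hsum : 1 / p₁.toReal + 1 / p₂.toReal + 1 / p₃.toReal = 1 / r.toReal)
    (hb : BoundedAt p₁ p₂ p₃ r) (hm : ∀ z ∈ Ω, 0 < m z) (hΩ : Ω.Nonempty) :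
    min 0 (shan Ω (fun z => (m z : ℝ) / (totW Ω m : ℝ)) id -
        2 * shan Ω (fun z => (m z : ℝ) / (totW Ω m : ℝ)) Prod.fst) +
      (1 / p₁.toReal) * (shan Ω (fun z => (m z : ℝ) / (totW Ω m : ℝ)) Prod.fst -
        shan Ω (fun z => (m z : ℝ) / (totW Ω m : ℝ)) (form 1)) +
      (1 / p₂.toReal) * (shan Ω (fun z => (m z : ℝ) / (totW Ω m : ℝ)) Prod.fst -
        shan Ω (fun z => (m z : ℝ) / (totW Ω m : ℝ)) (form 2)) +
      (1 / p₃.toReal) * (shan Ω (fun z => (m z : ℝ) / (totW Ω m : ℝ)) Prod.fst -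
        shan Ω (fun z => (m z : ℝ) / (totW Ω m : ℝ)) (form 3)) ≤ 0 := by
  have hM : 1 ≤ totW Ω m := by
    obtain ⟨z, hz⟩ := hΩ
    have h1 : m z ≤ totW Ω m := Finset.single_le_sum (f := m) (fun _ _ => Nat.zero_le _) hz
    have h2 := hm z hz
    omega
  have hM' : (0 : ℝ) < (totW Ω m : ℕ) := by exact_mod_cast hM
  have lx := log_expEnt hm hM (Prod.fst : ℤ × ℤ → ℤ)
  have lz := log_expEnt hm hM (id : ℤ × ℤ → ℤ × ℤ)
  have l1 := log_expEnt hm hM (form 1)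
  have l2 := log_expEnt hm hM (form 2)
  have l3 := log_expEnt hm hM (form 3)
  set μ : ℤ × ℤ → ℝ := fun z => (m z : ℝ) / (totW Ω m : ℝ) with hμ
  generalize shan Ω μ (Prod.fst : ℤ × ℤ → ℤ) = Hx at *
  generalize shan Ω μ (id : ℤ × ℤ → ℤ × ℤ) = Hz at *
  generalize shan Ω μ (form 1) = H1 at *
  generalize shan Ω μ (form 2) = H2 at *
  generalize shan Ω μ (form 3) = H3 at *
  have hEx : 0 < expEnt Ω m Prod.fst := expEnt_pos hm hM _
  have hEz : 0 < expEnt Ω m id := expEnt_pos hm hM _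
  have hE1 : 0 < expEnt Ω m (form 1) := expEnt_pos hm hM _
  have hE2 : 0 < expEnt Ω m (form 2) := expEnt_pos hm hM _
  have hE3 : 0 < expEnt Ω m (form 3) := expEnt_pos hm hM _
  set s₁ := 1 / p₁.toReal with hs₁
  set s₂ := 1 / p₂.toReal with hs₂
  set s₃ := 1 / p₃.toReal with hs₃
  have hlogineq : ∀ B : ℝ, expEnt Ω m Prod.fst ≤ B → expEnt Ω m id / expEnt Ω m Prod.fst ≤ B →
      (1 / r.toReal) * Real.log (expEnt Ω m Prod.fst) + (Real.log (expEnt Ω m id) -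
          Real.log (expEnt Ω m Prod.fst)) ≤
        Real.log B + (s₁ * Real.log (expEnt Ω m (form 1)) + s₂ * Real.log (expEnt Ω m (form 2)) +
          s₃ * Real.log (expEnt Ω m (form 3))) := by
    intro B hB1 hB2
    have hBpos : 0 < B := lt_of_lt_of_le hEx hB1
    have h := entropic_ineq hr0 hrtop hsum hb hm hΩ hB1 hB2
    have h2 := Real.log_le_log (by positivity) h
    rw [Real.log_mul (by positivity) (by positivity), Real.log_rpow hEx, Real.log_div hEz.ne' hEx.ne',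
      Real.log_mul hBpos.ne' (by positivity), Real.log_mul (by positivity) (by positivity),
      Real.log_mul (by positivity) (by positivity), Real.log_rpow hE1, Real.log_rpow hE2,
      Real.log_rpow hE3] at h2
    exact h2
  rw [← hsum] at hlogineq
  rw [lx, lz, l1, l2, l3] at hlogineq
  have hmul : ∀ {a : ℝ}, (totW Ω m : ℝ) * a ≤ 0 → a ≤ 0 := by
    intro a ha
    by_contra hc
    push Not at hc
    have := mul_pos hM' hc
    linarith
  apply hmul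
  by_cases hc : expEnt Ω m id / expEnt Ω m Prod.fst ≤ expEnt Ω m Prod.fst
  · have h := hlogineq _ le_rfl hc
    rw [lx] at h
    have hmin : min 0 (Hz - 2 * Hx) ≤ Hz - 2 * Hx := min_le_right _ _
    have hmin2 := mul_le_mul_of_nonneg_left hmin hM'.le
    push_cast at *
    nlinarith
  · push Not at hc
    have h := hlogineq _ hc.le le_rfl
    rw [Real.log_div hEz.ne' hEx.ne', lx, lz] at h
    have hmin : min 0 (Hz - 2 * Hx) ≤ 0 := min_le_left _ _
    have hmin2 := mul_le_mul_of_nonneg_left hmin hM'.le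
    push_cast at *
    nlinarith

end conversion

section limit
variable {Ω : Finset (ℤ × ℤ)}

lemma shan_tendsto {μs : ℕ → ℤ × ℤ → ℝ} {μ : ℤ × ℤ → ℝ}
    (h : ∀ z ∈ Ω, Tendsto (fun n => μs n z) atTop (𝓝 (μ z))) {ι : Type} [DecidableEq ι]
    (π : ℤ × ℤ → ι) : Tendsto (fun n => shan Ω (μs n) π) atTop (𝓝 (shan Ω μ π)) := by
  unfold shan
  apply tendsto_finset_sum
  intro v _
  apply Real.continuous_negMulLog.continuousAt.tendsto.comp
  apply tendsto_finset_sum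
  intro z hz
  exact h z (Finset.mem_filter.mp hz).1

/-- Rounding a distribution to natural weights. -/
noncomputable def roundW (μ : ℤ × ℤ → ℝ) (n : ℕ) (z : ℤ × ℤ) : ℕ := ⌈μ z * (n : ℝ)⌉₊ + 1

lemma roundW_tendsto {a : ℝ} (ha : 0 ≤ a) :
    Tendsto (fun n : ℕ => ((⌈a * (n : ℝ)⌉₊ + 1 : ℕ) : ℝ) / (n : ℝ)) atTop (𝓝 a) := by
  have h1 := (tendsto_nat_ceil_mul_div_atTop (R := ℝ) ha).comp tendsto_natCast_atTop_atTop
  have h2 : Tendsto (fun n : ℕ => (1 : ℝ) / (n : ℝ)) atTop (𝓝 0) :=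
    tendsto_one_div_atTop_nhds_zero_nat
  have h3 := h1.add h2
  rw [add_zero] at h3
  refine h3.congr fun n => ?_
  simp only [Function.comp]
  push_cast
  ring

/-- The rounded distributions converge to the original one. -/
lemma roundW_dist_tendsto {μ : ℤ × ℤ → ℝ} (h0 : ∀ z ∈ Ω, 0 ≤ μ z) (h1 : ∑ z ∈ Ω, μ z = 1) :
    ∀ z ∈ Ω, Tendsto (fun n : ℕ => ((roundW μ n z : ℕ) : ℝ) / ((totW Ω (roundW μ n) : ℕ) : ℝ))
      atTop (𝓝 (μ z)) := by
  intro z hz
  have hnum := roundW_tendsto (h0 z hz)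
  have hden : Tendsto (fun n : ℕ => ((totW Ω (roundW μ n) : ℕ) : ℝ) / (n : ℝ)) atTop (𝓝 1) := by
    rw [← h1]
    have : ∀ n : ℕ, ((totW Ω (roundW μ n) : ℕ) : ℝ) / (n : ℝ) =
        ∑ y ∈ Ω, ((⌈μ y * (n : ℝ)⌉₊ + 1 : ℕ) : ℝ) / (n : ℝ) := by
      intro n
      unfold totW roundW
      rw [← Finset.sum_div]
      push_cast
      rfl
    simp_rw [this]
    exact tendsto_finset_sum _ fun y hy => roundW_tendsto (h0 y hy)
  have h := hnum.div hden one_ne_zero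
  rw [div_one] at h
  refine h.congr' ?_
  filter_upwards [eventually_gt_atTop 0] with n hn
  have hn' : (n : ℝ) ≠ 0 := by exact_mod_cast hn.ne'
  have hnt : ∀ n : ℕ, ((roundW μ n z : ℕ) : ℝ) = ((⌈μ z * (n : ℝ)⌉₊ + 1 : ℕ) : ℝ) := fun _ => rfl
  simp only [Pi.div_apply]
  rw [div_div_div_cancel_right₀ hn']
  rfl

/-- The entropy inequality for an arbitrary finitely supported distribution. -/
theorem shan_ineq {p₁ p₂ p₃ r : ℝ≥0∞} (hr0 : r ≠ 0) (hrtop : r ≠ ⊤)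
    (hsum : 1 / p₁.toReal + 1 / p₂.toReal + 1 / p₃.toReal = 1 / r.toReal)
    (hb : BoundedAt p₁ p₂ p₃ r) {μ : ℤ × ℤ → ℝ} (h0 : ∀ z ∈ Ω, 0 ≤ μ z) (h1 : ∑ z ∈ Ω, μ z = 1) :
    min 0 (shan Ω μ id - 2 * shan Ω μ Prod.fst) +
      (1 / p₁.toReal) * (shan Ω μ Prod.fst - shan Ω μ (form 1)) +
      (1 / p₂.toReal) * (shan Ω μ Prod.fst - shan Ω μ (form 2)) +
      (1 / p₃.toReal) * (shan Ω μ Prod.fst - shan Ω μ (form 3)) ≤ 0 := by
  have hΩ : Ω.Nonempty := by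
    by_contra hc
    rw [Finset.not_nonempty_iff_eq_empty] at hc
    rw [hc] at h1
    simp at h1
  set μs : ℕ → ℤ × ℤ → ℝ := fun n z => ((roundW μ n z : ℕ) : ℝ) / ((totW Ω (roundW μ n) : ℕ) : ℝ)
    with hμs
  have ht := roundW_dist_tendsto h0 h1
  have hz := shan_tendsto (μs := μs) ht (id : ℤ × ℤ → ℤ × ℤ)
  have hx := shan_tendsto (μs := μs) ht (Prod.fst : ℤ × ℤ → ℤ)
  have h₁ := shan_tendsto (μs := μs) ht (form 1)
  have h₂ := shan_tendsto (μs := μs) ht (form 2)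
  have h₃ := shan_tendsto (μs := μs) ht (form 3)
  have hlim := (((tendsto_const_nhds (x := (0 : ℝ))).min (hz.sub (hx.const_mul 2))).add
    ((hx.sub h₁).const_mul (1 / p₁.toReal))).add ((hx.sub h₂).const_mul (1 / p₂.toReal))
    |>.add ((hx.sub h₃).const_mul (1 / p₃.toReal))
  refine le_of_tendsto' hlim fun n => ?_
  exact shan_ineq_nat (m := roundW μ n) hr0 hrtop hsum hb
    (fun z _ => Nat.succ_pos _) hΩ

end limit



end Vale.Agent.Lib.P141
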