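import Mathlib
import Vale.Agent.Lib.P141.Shannon
import Vale.Agent.Lib.P141.Hex

open Finset MeasureTheory Filter Topology
open scoped ENNReal SchwartzMap

namespace Vale.Agent.Lib.P141

/-- Weights as a function of the norm form of the hexagonal lattice. -/
def hexW (n : ℤ) : ℕ :=
  if n = 0 then 562 else if n = 1 then 426 else if n = 3 then 241 else if n = 4 then 180
  else if n = 7 then 73 else if n = 9 then 39 else if n = 12 then 15 else if n = 13 then 11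
  else if n = 16 then 4 else if n = 19 then 2 else if n = 21 then 1 else if n = 25 then 1 else 0

/-- The norm form. -/
def hexN (u v : ℤ) : ℤ := u * u + u * v + v * v

/-- The support: the image of the hexagonal disc of norm at most 25 under
`(u, v) ↦ (3 u - v, u - v)`. -/
noncomputable def hexΩ : Finset (ℤ × ℤ) :=
  ((Finset.Icc (-6 : ℤ) 6 ×ˢ Finset.Icc (-6 : ℤ) 6).filter (fun q => hexN q.1 q.2 ≤ 25)).image
    (fun q => (3 * q.1 - q.2, q.1 - q.2))

/-- The weight of a point. -/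
def hexM (z : ℤ × ℤ) : ℕ := hexW (hexN ((z.1 - z.2) / 2) ((z.1 - 3 * z.2) / 2))

/-- The product of `w ^ w` over the fibres of `π`. -/
def wProd {ι : Type} [DecidableEq ι] (Ω : Finset (ℤ × ℤ)) (m : ℤ × ℤ → ℕ) (π : ℤ × ℤ → ι) : ℕ :=
  ∏ v ∈ Ω.image π, (wgt Ω m π v) ^ (wgt Ω m π v)

lemma hexM_pos : ∀ z ∈ hexΩ, 0 < hexM z := by decide +kernel

lemma hex_total : totW hexΩ hexM = 7042 := by decide +kernel

lemma hex_N1 : (wProd hexΩ hexM Prod.fst) ^ 2 ≤
    7042 ^ 7042 * wProd hexΩ hexM id := by decide +kernel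

lemma hex_N2_1 : (wProd hexΩ hexM id) ^ 53 * (wProd hexΩ hexM Prod.fst) ^ (112 - 2 * 53) * (7042 ^ 7042) ^ 53 <
    (wProd hexΩ hexM (form 1)) ^ 112 := by decide +kernel

lemma hex_N2_2 : (wProd hexΩ hexM id) ^ 53 * (wProd hexΩ hexM Prod.fst) ^ (112 - 2 * 53) * (7042 ^ 7042) ^ 53 <
    (wProd hexΩ hexM (form 2)) ^ 112 := by decide +kernel

lemma hex_N2_3 : (wProd hexΩ hexM id) ^ 53 * (wProd hexΩ hexM Prod.fst) ^ (112 - 2 * 53) * (7042 ^ 7042) ^ 53 <
    (wProd hexΩ hexM (form 3)) ^ 112 := by decide +kernel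

section numeric
variable {Ω : Finset (ℤ × ℤ)} {m : ℤ × ℤ → ℕ}

lemma wProd_pos (hm : ∀ z ∈ Ω, 0 < m z) {ι : Type} [DecidableEq ι] (π : ℤ × ℤ → ι) :
    0 < wProd Ω m π := by
  unfold wProd
  exact Finset.prod_pos fun v hv => pow_pos (wgt_pos hm hv) _

lemma log_expEnt_eq (hm : ∀ z ∈ Ω, 0 < m z) (hM : 1 ≤ totW Ω m) {ι : Type} [DecidableEq ι]
    (π : ℤ × ℤ → ι) :
    Real.log (expEnt Ω m π) = (totW Ω m : ℝ) * Real.log (totW Ω m : ℝ) -
      Real.log (wProd Ω m π : ℝ) := by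
  have hM' : (0 : ℝ) < (totW Ω m : ℕ) := by exact_mod_cast hM
  have hW : (0 : ℝ) < (wProd Ω m π : ℝ) := by exact_mod_cast wProd_pos hm π
  have e : expEnt Ω m π = ((totW Ω m : ℕ) : ℝ) ^ (totW Ω m) / (wProd Ω m π : ℝ) := by
    unfold expEnt wProd
    push_cast
    rfl
  rw [e, Real.log_div (pow_pos hM' _).ne' hW.ne', Real.log_pow]

/-- The final real contradiction. -/
lemma final_real {a b s₁ s₂ s₃ lX lZ l1 l2 l3 : ℝ} (ha : 0 < a) (hb : 0 < b)
    (hs₁ : 0 ≤ s₁) (hs₂ : 0 ≤ s₂) (hs₃ : 0 ≤ s₃) (hS : a ≤ (s₁ + s₂ + s₃) * b)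
    (hτ : 0 ≤ 2 * lX - lZ)
    (g1 : b * (2 * lX - lZ) < a * (lX - l1)) (g2 : b * (2 * lX - lZ) < a * (lX - l2))
    (g3 : b * (2 * lX - lZ) < a * (lX - l3))
    (hlog : (s₁ + s₂ + s₃) * lX + (lZ - lX) ≤ lX + (s₁ * l1 + s₂ * l2 + s₃ * l3)) : False := by
  set τ := 2 * lX - lZ with hτdef
  have hsum : s₁ * (lX - l1) + s₂ * (lX - l2) + s₃ * (lX - l3) ≤ τ := by
    rw [hτdef]
    linarith
  have hsome : 0 < s₁ + s₂ + s₃ := by
    by_contra hc
    push Not at hc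
    have : (s₁ + s₂ + s₃) * b ≤ 0 := mul_nonpos_of_nonpos_of_nonneg hc hb.le
    linarith
  have h1 := mul_le_mul_of_nonneg_left g1.le hs₁
  have h2 := mul_le_mul_of_nonneg_left g2.le hs₂
  have h3 := mul_le_mul_of_nonneg_left g3.le hs₃
  have hmul : (s₁ + s₂ + s₃) * (b * τ) < a * (s₁ * (lX - l1) + s₂ * (lX - l2) + s₃ * (lX - l3)) := by
    rcases lt_or_eq_of_le hs₁ with h₁ | h₁
    · have := mul_lt_mul_of_pos_left g1 h₁
      linarith
    · rcases lt_or_eq_of_le hs₂ with h₂ | h₂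
      · have := mul_lt_mul_of_pos_left g2 h₂
        linarith
      · have h₃ : 0 < s₃ := by linarith
        have := mul_lt_mul_of_pos_left g3 h₃
        linarith
  have hle : a * τ ≤ (s₁ + s₂ + s₃) * (b * τ) := by
    have := mul_le_mul_of_nonneg_right hS hτ
    linarith
  have hup := mul_le_mul_of_nonneg_left hsum ha.le
  linarith

/-- A numerical criterion for unboundedness. -/
theorem not_bounded_of_nat {p₁ p₂ p₃ r : ℝ≥0∞} (h : IsHolder p₁ p₂ p₃ r)
    (hm : ∀ z ∈ Ω, 0 < m z) (hΩ : Ω.Nonempty) {a b : ℕ} (hb0 : 0 < b) (hab : 2 * b ≤ a)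
    (hS : (a : ℝ) / (b : ℝ) ≤ 1 / r.toReal)
    (hN1 : (wProd Ω m Prod.fst) ^ 2 ≤ (totW Ω m) ^ (totW Ω m) * wProd Ω m id)
    (hN2 : ∀ j : ℤ, j = 1 ∨ j = 2 ∨ j = 3 →
      (wProd Ω m id) ^ b * (wProd Ω m Prod.fst) ^ (a - 2 * b) * ((totW Ω m) ^ (totW Ω m)) ^ b <
        (wProd Ω m (form j)) ^ a) :
    ¬ BoundedAt p₁ p₂ p₃ r := by
  intro hB
  have hr0 : r ≠ 0 := h.r_pos.ne'
  have hrtop : r ≠ ⊤ := h.r_lt_top.ne
  have hsum := holder_sum h
  have hM : 1 ≤ totW Ω m := by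
    obtain ⟨z, hz⟩ := hΩ
    have h1 : m z ≤ totW Ω m := Finset.single_le_sum (f := m) (fun _ _ => Nat.zero_le _) hz
    have h2 := hm z hz
    omega
  have hM' : (0 : ℝ) < (totW Ω m : ℕ) := by exact_mod_cast hM
  set L : ℝ := (totW Ω m : ℝ) * Real.log (totW Ω m : ℝ) with hL
  have hMM : Real.log (((totW Ω m) ^ (totW Ω m) : ℕ) : ℝ) = L := by
    push_cast
    rw [Real.log_pow]
  have hMMpos : (0 : ℝ) < (((totW Ω m) ^ (totW Ω m) : ℕ) : ℝ) := by positivity
  have hWx : (0 : ℝ) < (wProd Ω m Prod.fst : ℝ) := by exact_mod_cast wProd_pos hm Prod.fst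
  have hWz : (0 : ℝ) < (wProd Ω m id : ℝ) := by exact_mod_cast wProd_pos hm id
  have hWj : ∀ j : ℤ, (0 : ℝ) < (wProd Ω m (form j) : ℝ) := fun j => by
    exact_mod_cast wProd_pos hm (form j)
  -- the logarithms
  have lx := log_expEnt_eq hm hM (Prod.fst : ℤ × ℤ → ℤ)
  have lz := log_expEnt_eq hm hM (id : ℤ × ℤ → ℤ × ℤ)
  have lj := fun j : ℤ => log_expEnt_eq hm hM (form j)
  -- `E_z ≤ E_x ^ 2`
  have h1 : 2 * Real.log (wProd Ω m Prod.fst : ℝ) ≤ L + Real.log (wProd Ω m id : ℝ) := by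
    have hc : ((wProd Ω m Prod.fst : ℝ)) ^ 2 ≤
        (((totW Ω m) ^ (totW Ω m) : ℕ) : ℝ) * (wProd Ω m id : ℝ) := by exact_mod_cast hN1
    have := Real.log_le_log (by positivity) hc
    rwa [Real.log_pow, Real.log_mul hMMpos.ne' hWz.ne', hMM] at this
  have ha0 : 0 < a := by omega
  have ha0' : (0 : ℝ) < a := by exact_mod_cast ha0
  have hb0' : (0 : ℝ) < b := by exact_mod_cast hb0
  have hab' : (a - 2 * b : ℕ) = (a : ℝ) - 2 * b := by
    rw [Nat.cast_sub hab]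
    push_cast
    rfl
  have h2 : ∀ j : ℤ, j = 1 ∨ j = 2 ∨ j = 3 →
      (b : ℝ) * (2 * Real.log (expEnt Ω m Prod.fst) - Real.log (expEnt Ω m id)) <
        (a : ℝ) * (Real.log (expEnt Ω m Prod.fst) - Real.log (expEnt Ω m (form j))) := by
    intro j hj
    have hc : ((wProd Ω m id : ℝ)) ^ b * ((wProd Ω m Prod.fst : ℝ)) ^ (a - 2 * b) *
        ((((totW Ω m) ^ (totW Ω m) : ℕ) : ℝ)) ^ b < ((wProd Ω m (form j) : ℝ)) ^ a := by
      exact_mod_cast hN2 j hj
    have hlog := Real.log_lt_log (by positivity) hc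
    rw [Real.log_mul (by positivity) (by positivity), Real.log_mul (by positivity) (by positivity),
      Real.log_pow, Real.log_pow, Real.log_pow, Real.log_pow, hMM, hab'] at hlog
    rw [lx, lz, lj j]
    nlinarith
  -- the main inequality
  have hEx : 0 < expEnt Ω m Prod.fst := expEnt_pos hm hM _
  have hEz : 0 < expEnt Ω m id := expEnt_pos hm hM _
  have hE1 : 0 < expEnt Ω m (form 1) := expEnt_pos hm hM _
  have hE2 : 0 < expEnt Ω m (form 2) := expEnt_pos hm hM _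
  have hE3 : 0 < expEnt Ω m (form 3) := expEnt_pos hm hM _
  have hBle : expEnt Ω m id / expEnt Ω m Prod.fst ≤ expEnt Ω m Prod.fst := by
    rw [div_le_iff₀ hEx, ← Real.log_le_log_iff hEz (by positivity),
      Real.log_mul hEx.ne' hEx.ne', lx, lz]
    linarith
  have hmain := entropic_ineq hr0 hrtop hsum hB hm hΩ le_rfl hBle
  have hlog := Real.log_le_log (by positivity) hmain
  rw [Real.log_mul (by positivity) (by positivity), Real.log_rpow hEx, Real.log_div hEz.ne' hEx.ne',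
    Real.log_mul hEx.ne' (by positivity), Real.log_mul (by positivity) (by positivity),
    Real.log_mul (by positivity) (by positivity), Real.log_rpow hE1, Real.log_rpow hE2,
    Real.log_rpow hE3, ← hsum] at hlog
  rw [← hsum, div_le_iff₀ hb0'] at hS
  have hτ : 0 ≤ 2 * Real.log (expEnt Ω m Prod.fst) - Real.log (expEnt Ω m id) := by
    rw [lx, lz]
    linarith
  exact final_real ha0' hb0' (by positivity) (by positivity) (by positivity) hS hτ
    (h2 1 (Or.inl rfl)) (h2 2 (Or.inr (Or.inl rfl))) (h2 3 (Or.inr (Or.inr rfl))) hlog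

end numeric

/-- No boundedness for `r ≤ 0.4732`. -/
theorem not_boundedAt_of_le_hex {p₁ p₂ p₃ r : ℝ≥0∞} (h : IsHolder p₁ p₂ p₃ r)
    (hr : r.toReal ≤ 0.4732) : ¬ BoundedAt p₁ p₂ p₃ r := by
  have hρ : 0 < r.toReal := ENNReal.toReal_pos h.r_pos.ne' h.r_lt_top.ne
  have hS : ((112 : ℕ) : ℝ) / ((53 : ℕ) : ℝ) ≤ 1 / r.toReal := by
    rw [le_div_iff₀ hρ, div_mul_eq_mul_div, div_le_iff₀ (by norm_num)]
    push_cast
    norm_num at hr ⊢
    linarith
  have hne : hexΩ.Nonempty := ⟨(0, 0), by decide +kernel⟩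
  refine not_bounded_of_nat h hexM_pos hne (a := 112) (b := 53) (by norm_num) (by norm_num) hS ?_ ?_
  · rw [hex_total]
    exact hex_N1
  · rw [hex_total]
    rintro j (rfl | rfl | rfl)
    · exact hex_N2_1
    · exact hex_N2_2
    · exact hex_N2_3

end Vale.Agent.Lib.P141
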